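import Mathlib

/-!
Scalar layer: the "piece" parameters, the function `phi`, its antitonicity and limit at infinity,
the clipped terms `Ipc` arising from the Young inequality.
-/

set_option autoImplicit false

namespace Crest.Agent.GAD

/-- Scalar parameters of one of the two pieces. -/
structure Piece (lp lm θ B pt al : ℝ) : Prop where
  lm_pos : 0 < lm
  lm_lt : lm < lp
  θ_pos : 0 < θ
  θ_lt : θ < 1
  B_nn : 0 ≤ B
  pt_pos : 0 < pt
  al_pos : 0 < al
  w_eq : al * pt = (1 - θ) * lp + θ * lm - B
  cond : B * (θ * lp + (1 - θ) * lm) ≤ lp * lm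

/-- The layer function. -/
noncomputable def phi (lp lm θ B r : ℝ) : ℝ :=
  (1 - θ) * Real.log (lp + r) + θ * Real.log (lm + r) - Real.log (B + r)

section
variable {lp lm θ B pt al : ℝ}

lemma phi_hasDerivAt (h : Piece lp lm θ B pt al) {r : ℝ} (hr : 0 ≤ r) (hr' : 0 < B + r) :
    HasDerivAt (phi lp lm θ B) ((1 - θ) * (lp + r)⁻¹ + θ * (lm + r)⁻¹ - (B + r)⁻¹) r := by
  have h1 : 0 < lm + r := by linarith [h.lm_pos]
  have h2 : 0 < lp + r := by linarith [h.lm_lt]
  unfold phi
  have d1 : HasDerivAt (fun x : ℝ => Real.log (lp + x)) ((lp + r)⁻¹) r := by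
    have := ((hasDerivAt_id r).const_add lp).log h2.ne'
    simpa [div_eq_mul_inv] using this
  have d2 : HasDerivAt (fun x : ℝ => Real.log (lm + x)) ((lm + r)⁻¹) r := by
    have := ((hasDerivAt_id r).const_add lm).log h1.ne'
    simpa [div_eq_mul_inv] using this
  have d3 : HasDerivAt (fun x : ℝ => Real.log (B + x)) ((B + r)⁻¹) r := by
    have := ((hasDerivAt_id r).const_add B).log hr'.ne'
    simpa [div_eq_mul_inv] using this
  exact ((d1.const_mul (1 - θ)).add (d2.const_mul θ)).sub d3

lemma phi_deriv_nonpos (h : Piece lp lm θ B pt al) {r : ℝ} (hr : 0 ≤ r) (hr' : 0 < B + r) :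
    (1 - θ) * (lp + r)⁻¹ + θ * (lm + r)⁻¹ - (B + r)⁻¹ ≤ 0 := by
  have h1 : 0 < lm + r := by linarith [h.lm_pos]
  have h2 : 0 < lp + r := by linarith [h.lm_lt]
  have hw : 0 < al * pt := mul_pos h.al_pos h.pt_pos
  have hw' := h.w_eq
  have hc := h.cond
  have key : (B + r) * ((1 - θ) * (lm + r) + θ * (lp + r)) ≤ (lp + r) * (lm + r) := by
    nlinarith [mul_nonneg hr hw.le]
  have e : (1 - θ) * (lp + r)⁻¹ + θ * (lm + r)⁻¹ - (B + r)⁻¹
      = ((B + r) * ((1 - θ) * (lm + r) + θ * (lp + r)) - (lp + r) * (lm + r))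
        / ((lp + r) * (lm + r) * (B + r)) := by
    field_simp
  rw [e]
  apply div_nonpos_of_nonpos_of_nonneg
  · linarith
  · positivity

/-- `phi` is antitone on `{r ≥ 0, B + r > 0}`. -/
lemma phi_anti (h : Piece lp lm θ B pt al) {r₁ r₂ : ℝ} (h1 : 0 ≤ r₁) (h1' : 0 < B + r₁)
    (h12 : r₁ ≤ r₂) : phi lp lm θ B r₂ ≤ phi lp lm θ B r₁ := by
  have hanti : AntitoneOn (phi lp lm θ B) (Set.Icc r₁ r₂) := by
    apply antitoneOn_of_deriv_nonpos (convex_Icc r₁ r₂)
    · intro x hx
      exact (phi_hasDerivAt h (by linarith [hx.1]) (by linarith [hx.1])).continuousAt.continuousWithinAt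
    · intro x hx
      rw [interior_Icc] at hx
      exact (phi_hasDerivAt h (by linarith [hx.1]) (by linarith [hx.1])).differentiableAt.differentiableWithinAt
    · intro x hx
      rw [interior_Icc] at hx
      rw [(phi_hasDerivAt h (by linarith [hx.1]) (by linarith [hx.1])).deriv]
      exact phi_deriv_nonpos h (by linarith [hx.1]) (by linarith [hx.1])
  exact hanti (Set.left_mem_Icc.mpr h12) (Set.right_mem_Icc.mpr h12) h12

lemma tendsto_log_add_sub_log (x : ℝ) :
    Filter.Tendsto (fun r : ℝ => Real.log (x + r) - Real.log r) Filter.atTop (nhds 0) := by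
  have h1 : Filter.Tendsto (fun r : ℝ => 1 + x / r) Filter.atTop (nhds 1) := by
    have := (tendsto_const_nhds (x := (1:ℝ))).add (Filter.tendsto_id.const_div_atTop x)
    simpa using this
  have h2 : Filter.Tendsto (fun r : ℝ => Real.log (1 + x / r)) Filter.atTop (nhds 0) := by
    have := (Real.continuousAt_log (one_ne_zero)).tendsto.comp h1
    simpa [Function.comp_def] using this
  refine h2.congr' ?_
  filter_upwards [Filter.eventually_gt_atTop (0 : ℝ), Filter.eventually_gt_atTop (-x)] with r hr hr2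
  have : 1 + x / r = (x + r) / r := by
    field_simp
    ring
  rw [this, Real.log_div (by linarith) hr.ne']

lemma phi_tendsto (lp lm θ B : ℝ) :
    Filter.Tendsto (phi lp lm θ B) Filter.atTop (nhds 0) := by
  have h := ((tendsto_log_add_sub_log lp).const_mul (1 - θ)).add
    (((tendsto_log_add_sub_log lm).const_mul θ)) |>.sub (tendsto_log_add_sub_log B)
  have e : (1 - θ) * (0 : ℝ) + θ * 0 - 0 = 0 := by ring
  rw [e] at h
  refine h.congr ?_
  intro r
  unfold phi
  ring

lemma phi_nonneg (h : Piece lp lm θ B pt al) {r : ℝ} (hr : 0 ≤ r) (hr' : 0 < B + r) :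
    0 ≤ phi lp lm θ B r := by
  apply le_of_tendsto (phi_tendsto lp lm θ B)
  filter_upwards [Filter.eventually_ge_atTop r] with R hR
  exact phi_anti h hr hr' hR

/-- The constant `a₀` of the piece. -/
noncomputable def aNull (lp lm θ pt : ℝ) : ℝ := (lp - lm) * θ / pt
/-- The constant `a₊` of the piece. -/
noncomputable def aPlus (lp lm θ pt al : ℝ) : ℝ := al + aNull lp lm θ pt
/-- The threshold `u*`. -/
noncomputable def uStar (lp lm θ : ℝ) : ℝ := ((1 - θ) * lp + θ * lm) / lp

/-- The combined term for a single eigenvalue `π`. -/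
noncomputable def Ipc (lp lm θ pt al π : ℝ) : ℝ :=
  Real.log (1 - aNull lp lm θ pt * π - al / aPlus lp lm θ pt al)
    - Real.log (max (1 - aNull lp lm θ pt * π) (uStar lp lm θ) - al / aPlus lp lm θ pt al)
    + θ * Real.log ((max (1 - aNull lp lm θ pt * π) (uStar lp lm θ) - 1 + θ) / θ)
    - Real.log (1 - aPlus lp lm θ pt al * π)

lemma aNull_pos (h : Piece lp lm θ B pt al) : 0 < aNull lp lm θ pt := by
  unfold aNull
  have := h.lm_lt
  have := h.θ_pos
  have := h.pt_pos
  apply div_pos (mul_pos (by linarith) ‹_›) ‹_›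

lemma aPlus_pos (h : Piece lp lm θ B pt al) : 0 < aPlus lp lm θ pt al := by
  unfold aPlus
  have := aNull_pos h
  have := h.al_pos
  linarith

lemma aPlus_mul_pt (h : Piece lp lm θ B pt al) : aPlus lp lm θ pt al * pt = lp - B := by
  unfold aPlus aNull
  have := h.pt_pos
  have h2 := h.w_eq
  field_simp
  nlinarith

lemma lp_pos (h : Piece lp lm θ B pt al) : 0 < lp := by
  linarith [h.lm_pos, h.lm_lt]

lemma B_lt_lp (h : Piece lp lm θ B pt al) : B < lp := by
  have h2 := h.w_eq
  have h3 := mul_pos h.al_pos h.pt_pos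
  have h4 := h.lm_lt
  have h5 := h.θ_pos
  nlinarith

/-- One minus the ratio `al/a₊` is `a₀/a₊`. -/
lemma u0_eq (h : Piece lp lm θ B pt al) :
    al / aPlus lp lm θ pt al = 1 - aNull lp lm θ pt / aPlus lp lm θ pt al := by
  have := aPlus_pos h
  field_simp
  unfold aPlus
  ring

/-- Relation between `phi` and the Ipc expression in the unclipped regime. -/
lemma Ipc_eq_phi (h : Piece lp lm θ B pt al) {r : ℝ} (hr : 0 ≤ r) (hr' : 0 < B + r) :
    Ipc lp lm θ pt al (pt / (lp + r)) = phi lp lm θ B r := by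
  have hlp := lp_pos h
  have hlm := h.lm_pos
  have hlt := h.lm_lt
  have hθ := h.θ_pos
  have hpt := h.pt_pos
  have h0 := aNull_pos h
  have hP := aPlus_pos h
  have hrp : 0 < lp + r := by linarith
  have hrm : 0 < lm + r := by linarith
  -- the value of the argument
  have e0 : aNull lp lm θ pt * (pt / (lp + r)) = (lp - lm) * θ / (lp + r) := by
    unfold aNull
    field_simp
  have eP : aPlus lp lm θ pt al * (pt / (lp + r)) = (lp - B) / (lp + r) := by
    rw [← aPlus_mul_pt h]
    field_simp
  -- clipping does nothing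
  have hclip : uStar lp lm θ ≤ 1 - aNull lp lm θ pt * (pt / (lp + r)) := by
    rw [e0]
    unfold uStar
    rw [div_le_iff₀ hlp]
    have : (1 - (lp - lm) * θ / (lp + r)) * lp = lp - (lp - lm) * θ * lp / (lp + r) := by
      field_simp
    rw [this]
    have h3 : (lp - lm) * θ * lp / (lp + r) ≤ (lp - lm) * θ := by
      rw [div_le_iff₀ hrp]
      have : 0 ≤ (lp - lm) * θ * r := by
        apply mul_nonneg (mul_nonneg (by linarith) hθ.le) hr
      nlinarith
    nlinarith
  unfold Ipc
  rw [max_eq_left hclip, u0_eq h, eP, e0]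
  have hfrac : 0 < aNull lp lm θ pt / aPlus lp lm θ pt al := div_pos h0 hP
  -- two factorisations
  have e1 : 1 - (lp - lm) * θ / (lp + r) - (1 - aNull lp lm θ pt / aPlus lp lm θ pt al)
      = aNull lp lm θ pt / aPlus lp lm θ pt al * ((B + r) / (lp + r)) := by
    have : (lp - lm) * θ = aNull lp lm θ pt * pt := by
      unfold aNull
      field_simp
    rw [this]
    have e3 := aPlus_mul_pt h
    have : B + r = (lp + r) - aPlus lp lm θ pt al * pt := by rw [e3]; ring
    rw [this]
    field_simp
    ring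
  have e2 : (1 - (lp - B) / (lp + r)) = (B + r) / (lp + r) := by
    field_simp
    ring
  have e4 : (1 - (lp - lm) * θ / (lp + r) - 1 + θ) / θ = (lm + r) / (lp + r) := by
    field_simp
    ring
  rw [e1, e2, e4]
  have hBr : 0 < (B + r) / (lp + r) := div_pos hr' hrp
  have hlm2 : 0 < (lm + r) / (lp + r) := div_pos hrm hrp
  rw [Real.log_div hrm.ne' hrp.ne', Real.log_div hr'.ne' hrp.ne']
  unfold phi
  ring

lemma uStar_eq (h : Piece lp lm θ B pt al) : uStar lp lm θ = 1 - (lp - lm) * θ / lp := by
  have := lp_pos h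
  unfold uStar
  field_simp
  ring

lemma uStar_le_one (h : Piece lp lm θ B pt al) : uStar lp lm θ ≤ 1 := by
  rw [uStar_eq h]
  have : 0 ≤ (lp - lm) * θ / lp :=
    div_nonneg (mul_nonneg (by linarith [h.lm_lt]) h.θ_pos.le) (lp_pos h).le
  linarith

lemma uStar_gt (h : Piece lp lm θ B pt al) : 1 - θ < uStar lp lm θ := by
  have hlp := lp_pos h
  unfold uStar
  rw [lt_div_iff₀ hlp]
  have := mul_pos h.θ_pos h.lm_pos
  nlinarith

/-- For `a₊ π < 1` the eigenvalue-dependent numerator factorises. -/
lemma log_u_sub (h : Piece lp lm θ B pt al) {π : ℝ} (hπ : aPlus lp lm θ pt al * π < 1) :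
    Real.log (1 - aNull lp lm θ pt * π - al / aPlus lp lm θ pt al) - Real.log (1 - aPlus lp lm θ pt al * π)
      = Real.log (aNull lp lm θ pt / aPlus lp lm θ pt al) := by
  have h0 := aNull_pos h
  have hP := aPlus_pos h
  have e : 1 - aNull lp lm θ pt * π - al / aPlus lp lm θ pt al
      = aNull lp lm θ pt / aPlus lp lm θ pt al * (1 - aPlus lp lm θ pt al * π) := by
    rw [u0_eq h]
    field_simp
    ring
  have hpos : 0 < 1 - aPlus lp lm θ pt al * π := by linarith
  rw [e, Real.log_mul (div_pos h0 hP).ne' hpos.ne']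
  ring

lemma u0_lt (h : Piece lp lm θ B pt al) {π : ℝ} (hπ : aPlus lp lm θ pt al * π < 1) :
    al / aPlus lp lm θ pt al < 1 - aNull lp lm θ pt * π := by
  have h0 := aNull_pos h
  have hP := aPlus_pos h
  have e : 1 - aNull lp lm θ pt * π - al / aPlus lp lm θ pt al
      = aNull lp lm θ pt / aPlus lp lm θ pt al * (1 - aPlus lp lm θ pt al * π) := by
    rw [u0_eq h]
    field_simp
    ring
  have hpos : 0 < 1 - aPlus lp lm θ pt al * π := by linarith
  have := mul_pos (div_pos h0 hP) hpos
  linarith

/-- Evaluation of `Ipc` at a positive eigenvalue. -/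
lemma Ipc_eval (h : Piece lp lm θ B pt al) {π : ℝ} (h0 : 0 < π)
    (hπ : aPlus lp lm θ pt al * π < 1) :
    0 < B + max (pt / π - lp) 0 ∧ Ipc lp lm θ pt al π = phi lp lm θ B (max (pt / π - lp) 0) := by
  have hpt := h.pt_pos
  have hlp := lp_pos h
  have hP := aPlus_pos h
  have hB : 0 < B + (pt / π - lp) := by
    have e := aPlus_mul_pt h
    have : lp - B < pt / π := by
      rw [lt_div_iff₀ h0, ← e]
      nlinarith
    linarith
  rcases le_total (pt / π - lp) 0 with hr | hr
  · -- clipped regime
    rw [max_eq_right hr]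
    have hB0 : 0 < B + 0 := by linarith
    refine ⟨hB0, ?_⟩
    rw [← Ipc_eq_phi h le_rfl hB0]
    have hπ2 : aPlus lp lm θ pt al * (pt / (lp + 0)) < 1 := by
      rw [add_zero]
      have e := aPlus_mul_pt h
      have : aPlus lp lm θ pt al * (pt / lp) = (lp - B) / lp := by
        rw [← e]
        field_simp
      rw [this, div_lt_one hlp]
      linarith
    have hx1 : max (1 - aNull lp lm θ pt * π) (uStar lp lm θ) = uStar lp lm θ := by
      apply max_eq_right
      rw [uStar_eq h]
      have h3 : (lp - lm) * θ / lp ≤ aNull lp lm θ pt * π := by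
        unfold aNull
        have h4 : pt / π ≤ lp := by linarith
        have h5 : (lp - lm) * θ * pt / π ≤ (lp - lm) * θ * lp := by
          have := mul_le_mul_of_nonneg_left h4 (mul_nonneg (by linarith [h.lm_lt]) h.θ_pos.le : 0 ≤ (lp - lm) * θ)
          calc _ = (lp - lm) * θ * (pt / π) := by ring
            _ ≤ _ := this
        rw [div_le_iff₀ hlp]
        rw [div_le_iff₀ h0] at h5
        field_simp
        nlinarith
      linarith
    have hx2 : max (1 - aNull lp lm θ pt * (pt / (lp + 0))) (uStar lp lm θ) = uStar lp lm θ := by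
      apply max_eq_right
      rw [uStar_eq h]
      apply le_of_eq
      unfold aNull
      rw [add_zero]
      field_simp
    unfold Ipc
    rw [hx1, hx2]
    have l1 := log_u_sub h hπ
    have l2 := log_u_sub h hπ2
    linarith
  · rw [max_eq_left hr]
    have hB1 := hB
    refine ⟨hB, ?_⟩
    rw [← Ipc_eq_phi h hr hB]
    congr 1
    have : 0 < pt / π := div_pos hpt h0
    have e : lp + (pt / π - lp) = pt / π := by ring
    rw [e]
    field_simp

lemma Ipc_zero (h : Piece lp lm θ B pt al) : Ipc lp lm θ pt al 0 = 0 := by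
  have hu := uStar_le_one h
  have hθ := h.θ_pos
  unfold Ipc
  simp only [mul_zero, sub_zero, Real.log_one]
  rw [max_eq_left hu]
  have : (1 - 1 + θ) / θ = 1 := by
    field_simp
    ring
  rw [this, Real.log_one]
  ring

lemma Ipc_nonneg (h : Piece lp lm θ B pt al) {π : ℝ} (h0 : 0 ≤ π)
    (hπ : aPlus lp lm θ pt al * π < 1) : 0 ≤ Ipc lp lm θ pt al π := by
  rcases h0.eq_or_lt with rfl | hpos
  · rw [Ipc_zero h]
  · obtain ⟨h1, h2⟩ := Ipc_eval h hpos hπ
    rw [h2]
    exact phi_nonneg h (le_max_right _ _) h1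

lemma Ipc_ge_phi (h : Piece lp lm θ B pt al) {π r : ℝ} (h0 : 0 ≤ π)
    (hπ : aPlus lp lm θ pt al * π < 1) (hr : 0 < r) (hπr : pt / (lp + r) < π) :
    phi lp lm θ B r ≤ Ipc lp lm θ pt al π := by
  have hpos : 0 < π := lt_of_le_of_lt (div_nonneg h.pt_pos.le (by linarith [lp_pos h])) hπr
  obtain ⟨h1, h2⟩ := Ipc_eval h hpos hπ
  rw [h2]
  apply phi_anti h (le_max_right _ _) h1
  apply max_le _ hr.le
  have hlr : 0 < lp + r := by linarith [lp_pos h]
  have : pt / π < lp + r := by
    rw [div_lt_iff₀ hpos]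
    rw [div_lt_iff₀ hlr] at hπr
    linarith
  linarith

/-- Partition minorant: a monotone layer decomposition. -/
lemma partition_bound (I : ℝ) (φ : ℕ → ℝ) (χ : ℕ → Prop) [DecidablePred χ]
    (hanti : ∀ k, φ (k + 1) ≤ φ k) (hnn : 0 ≤ I) (hφnn : ∀ k, 0 ≤ φ k)
    (hχ : ∀ k, χ k → φ k ≤ I) (K : ℕ) :
    ∑ k ∈ Finset.range K, (φ k - φ (k + 1)) * (if χ k then 1 else 0) ≤ I := by
  have key : ∀ K, ∑ k ∈ Finset.range K, (φ k - φ (k + 1)) * (if χ k then 1 else 0) ≤ max (I - φ K) 0 := by
    intro K
    induction K with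
    | zero => simp
    | succ K ih =>
      rw [Finset.sum_range_succ]
      by_cases hk : χ K
      · rw [if_pos hk, mul_one]
        have h1 := hχ K hk
        rw [max_eq_left (by linarith)] at ih
        apply le_max_of_le_left
        linarith
      · rw [if_neg hk, mul_zero, add_zero]
        refine ih.trans (max_le_max ?_ le_rfl)
        linarith [hanti K]
  refine (key K).trans (max_le ?_ hnn)
  linarith [hφnn K]

/-- `∫₀^R log (x + t) dt`. -/
noncomputable def Jb (x R : ℝ) : ℝ := (x + R) * Real.log (x + R) - x * Real.log x - R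

lemma Jb_zero (x : ℝ) : Jb x 0 = 0 := by
  unfold Jb
  simp

lemma Jb_hasDerivAt (x : ℝ) {R : ℝ} (h : 0 < x + R) :
    HasDerivAt (Jb x) (Real.log (x + R)) R := by
  unfold Jb
  have d1 : HasDerivAt (fun y : ℝ => x + y) 1 R := by simpa using (hasDerivAt_id R).const_add x
  have d2 := d1.mul (d1.log h.ne')
  have d3 := (d2.sub_const (x * Real.log x)).sub (hasDerivAt_id R)
  have e : 1 * Real.log (x + R) + (x + R) * (1 / (x + R)) - 1 = Real.log (x + R) := by
    have : (x + R) * (1 / (x + R)) = 1 := by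
      field_simp
    rw [this]
    ring
  rw [e] at d3
  exact d3

/-- The antiderivative of the shifted layer function. -/
noncomputable def PHI (lp lm θ B δ R : ℝ) : ℝ :=
  (1 - θ) * Jb (lp + δ) R + θ * Jb (lm + δ) R - Jb (B + δ) R

lemma PHI_zero (lp lm θ B δ : ℝ) : PHI lp lm θ B δ 0 = 0 := by
  unfold PHI
  simp [Jb_zero]

lemma PHI_hasDerivAt (h : Piece lp lm θ B pt al) {δ R : ℝ} (hδ : 0 < δ) (hR : 0 ≤ R) :
    HasDerivAt (PHI lp lm θ B δ) (phi lp lm θ B (R + δ)) R := by
  have h1 : 0 < lm + δ + R := by linarith [h.lm_pos]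
  have h2 : 0 < lp + δ + R := by linarith [h.lm_lt, h.lm_pos]
  have h3 : 0 < B + δ + R := by linarith [h.B_nn]
  unfold PHI
  have := (((Jb_hasDerivAt (lp + δ) h2).const_mul (1 - θ)).add ((Jb_hasDerivAt (lm + δ) h1).const_mul θ)).sub
    (Jb_hasDerivAt (B + δ) h3)
  have e : phi lp lm θ B (R + δ) = (1 - θ) * Real.log (lp + δ + R) + θ * Real.log (lm + δ + R)
      - Real.log (B + δ + R) := by
    unfold phi
    rw [show lp + (R + δ) = lp + δ + R by ring, show lm + (R + δ) = lm + δ + R by ring,
      show B + (R + δ) = B + δ + R by ring]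
  rw [e]
  exact this

/-- Abel summation: layers against a clipped linear function. -/
lemma abel_layers (h : Piece lp lm θ B pt al) {δ s T : ℝ} (hδ : 0 < δ) (hs : 0 < s) (hT : 0 ≤ T) (K : ℕ) :
    s * PHI lp lm θ B δ (min ((K : ℝ) * δ * s) T / s)
      ≤ ∑ k ∈ Finset.range K,
          (phi lp lm θ B (((k : ℝ) + 1) * δ) - phi lp lm θ B (((k : ℝ) + 1 + 1) * δ))
            * min (((k : ℝ) + 1) * δ * s) T
        + phi lp lm θ B (((K : ℝ) + 1) * δ) * min ((K : ℝ) * δ * s) T := by
  induction K with
  | zero =>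
    have hz : min (0 : ℝ) T = 0 := min_eq_left hT
    simp [hz, PHI_zero]
  | succ K ih =>
    rw [Finset.sum_range_succ]
    push_cast
    set M := min ((K : ℝ) * δ * s) T with hM
    set M' := min (((K : ℝ) + 1) * δ * s) T with hM'
    set r := ((K : ℝ) + 1) * δ with hr
    have hrpos : 0 < r := by positivity
    have hM0 : 0 ≤ M := le_min (by positivity) hT
    have hMM' : M ≤ M' := by
      apply min_le_min _ le_rfl
      have : 0 ≤ δ * s := by positivity
      nlinarith
    -- mean value inequality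
    have hmv : s * PHI lp lm θ B δ (M' / s) - s * PHI lp lm θ B δ (M / s)
        ≤ phi lp lm θ B r * (M' - M) := by
      rcases hMM'.eq_or_lt with heq | hlt
      · rw [heq]
        simp
      · have hMeq : M = (K : ℝ) * δ * s := by
          rcases min_choice ((K : ℝ) * δ * s) T with h1 | h1
          · rw [hM, h1]
          · exfalso
            have : M' ≤ T := min_le_right _ _
            rw [← hM, ] at h1
            linarith
        have hD : ∀ x ∈ Set.Icc M M', HasDerivAt (fun x => s * PHI lp lm θ B δ (x / s))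
            (phi lp lm θ B (x / s + δ)) x := by
          intro x hx
          have hx0 : 0 ≤ x / s := div_nonneg (hM0.trans hx.1) hs.le
          have d := (PHI_hasDerivAt h hδ hx0).comp x ((hasDerivAt_id x).div_const s)
          have d2 := d.const_mul s
          have e : s * (phi lp lm θ B (x / s + δ) * (1 / s)) = phi lp lm θ B (x / s + δ) := by
            field_simp
          rw [e] at d2
          exact d2
        have := Convex.image_sub_le_mul_sub_of_deriv_le (f := fun x => s * PHI lp lm θ B δ (x / s))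
          (convex_Icc M M') 
          (fun x hx => (hD x hx).continuousAt.continuousWithinAt)
          (fun x hx => by
            rw [interior_Icc] at hx
            exact (hD x (Set.Ioo_subset_Icc_self hx)).differentiableAt.differentiableWithinAt)
          (C := phi lp lm θ B r)
          (fun x hx => by
            rw [interior_Icc] at hx
            rw [(hD x (Set.Ioo_subset_Icc_self hx)).deriv]
            apply phi_anti h hrpos.le (by linarith [h.B_nn])
            have h1 : (K : ℝ) * δ ≤ x / s := by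
              rw [le_div_iff₀ hs]
              linarith [hx.1]
            rw [hr]
            linarith)
          M (Set.left_mem_Icc.mpr hMM') M' (Set.right_mem_Icc.mpr hMM') hMM'
        simpa using this
    have e : phi lp lm θ B (((K : ℝ) + 1 + 1) * δ) * M'
        + (phi lp lm θ B r - phi lp lm θ B (((K : ℝ) + 1 + 1) * δ)) * M' = phi lp lm θ B r * M' := by ring
    nlinarith

end

end Crest.Agent.GAD
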