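import Crest.Agent.Lib.GADKey.Young
import Crest.Agent.Lib.GADKey.Scalar

/-!
Block/resolvent identities for the matrix `M + t`.
-/

set_option autoImplicit false

namespace Crest.Agent.GAD

open Matrix
open scoped ComplexOrder

variable {d K : Type*} [Fintype d] [DecidableEq d] [Fintype K] [DecidableEq K]

/-- The positive matrix used for the resolvent of a piece. -/
noncomputable def Em (A C : Matrix d d ℂ) (ap be t : ℝ) : Matrix d d ℂ :=
  (ap : ℂ) • A + (be : ℂ) • C + (t : ℂ) • 1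

lemma psd_smul {A : Matrix d d ℂ} (hA : A.PosSemidef) {c : ℝ} (hc : 0 ≤ c) :
    ((c : ℂ) • A).PosSemidef :=
  hA.smul (by exact_mod_cast hc)

lemma psd_add_t {S : Matrix d d ℂ} (hS : S.PosSemidef) {t : ℝ} (ht : 0 < t) :
    (S + (t : ℂ) • (1 : Matrix d d ℂ)).PosDef := by
  have h1 : ((t : ℂ) • (1 : Matrix d d ℂ)).PosDef := PosDef.one.smul (by exact_mod_cast ht)
  exact PosDef.posSemidef_add hS h1

lemma Em_posDef {A C : Matrix d d ℂ} (hA : A.PosSemidef) (hC : C.PosSemidef) {ap be t : ℝ}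
    (hap : 0 ≤ ap) (hbe : 0 ≤ be) (ht : 0 < t) : (Em A C ap be t).PosDef := by
  unfold Em
  exact psd_add_t ((psd_smul hA hap).add (psd_smul hC hbe)) ht

/-- Resolvent matrix. -/
noncomputable def Pm (a : Matrix d K ℂ) (E : Matrix d d ℂ) : Matrix K K ℂ := aᴴ * E⁻¹ * a

lemma Pm_psd (a : Matrix d K ℂ) {E : Matrix d d ℂ} (hE : E.PosDef) : (Pm a E).PosSemidef := by
  unfold Pm
  exact hE.inv.posSemidef.conjTranspose_mul_mul_same a

/-- `det (β C + t) = det E · det (1 - a₊ P)`. -/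
lemma det_piece (a : Matrix d K ℂ) (C : Matrix d d ℂ) (ap be t : ℝ)
    (hE : (Em (a * aᴴ) C ap be t).PosDef) :
    ((be : ℂ) • C + (t : ℂ) • (1 : Matrix d d ℂ)).det
      = (Em (a * aᴴ) C ap be t).det * (1 - (ap : ℂ) • Pm a (Em (a * aᴴ) C ap be t)).det := by
  set E := Em (a * aᴴ) C ap be t with hEdef
  have hunit : IsUnit E.det := (isUnit_iff_isUnit_det E).mp hE.isUnit
  have h1 : (be : ℂ) • C + (t : ℂ) • (1 : Matrix d d ℂ) = E * (1 - (((ap : ℂ) • (E⁻¹ * a)) * aᴴ)) := by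
    rw [Matrix.mul_sub, Matrix.mul_one, Matrix.smul_mul, Matrix.mul_smul, Matrix.mul_assoc,
      ← Matrix.mul_assoc E, mul_nonsing_inv _ hunit, Matrix.one_mul]
    rw [hEdef]
    unfold Em
    abel
  rw [h1, det_mul, det_one_sub_mul_comm]
  congr 2
  unfold Pm
  rw [Matrix.mul_smul, Matrix.mul_assoc]

/-- `1 - a₊ P` is positive definite: Woodbury. -/
lemma one_sub_posDef (a : Matrix d K ℂ) {C : Matrix d d ℂ} (hC : C.PosSemidef) {ap be t : ℝ}
    (hap : 0 ≤ ap) (hbe : 0 ≤ be) (ht : 0 < t) :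
    (1 - (ap : ℂ) • Pm a (Em (a * aᴴ) C ap be t)).PosDef := by
  have hA : (a * aᴴ).PosSemidef := posSemidef_self_mul_conjTranspose a
  have hE := Em_posDef hA hC hap hbe ht
  set E := Em (a * aᴴ) C ap be t with hEdef
  set S := (be : ℂ) • C + (t : ℂ) • (1 : Matrix d d ℂ) with hSdef
  have hS : S.PosDef := psd_add_t (psd_smul hC hbe) ht
  have hEu : IsUnit E.det := (isUnit_iff_isUnit_det E).mp hE.isUnit
  have hSu : IsUnit S.det := (isUnit_iff_isUnit_det S).mp hS.isUnit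
  set c : ℂ := (ap : ℂ) with hc
  set X : Matrix K K ℂ := aᴴ * S⁻¹ * a with hX
  set Y : Matrix K K ℂ := Pm a E with hY
  have hES : c • (a * aᴴ) = E - S := by
    rw [hEdef, hSdef]
    unfold Em
    abel
  have hYX : Y * (c • X) = X - Y := by
    have h1 : Y * (c • X) = aᴴ * (E⁻¹ * (c • (a * aᴴ)) * S⁻¹) * a := by
      rw [hY, hX]
      unfold Pm
      simp only [Matrix.mul_smul, Matrix.smul_mul, Matrix.mul_assoc]
    rw [h1, hES, Matrix.mul_sub, Matrix.sub_mul, nonsing_inv_mul _ hEu, Matrix.one_mul,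
      Matrix.mul_assoc E⁻¹, mul_nonsing_inv _ hSu, Matrix.mul_one, Matrix.mul_sub, Matrix.sub_mul,
      hY, hX]
    unfold Pm
    rfl
  have hinv : (1 - c • Y) * (1 + c • X) = 1 := by
    rw [Matrix.sub_mul, Matrix.one_mul, Matrix.mul_add, Matrix.mul_one, Matrix.smul_mul, hYX]
    simp only [smul_sub]
    abel
  have hXpsd : (c • X).PosSemidef := by
    have : X.PosSemidef := by
      rw [hX]
      exact hS.inv.posSemidef.conjTranspose_mul_mul_same a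
    exact psd_smul this hap
  have hpd : (1 + c • X).PosDef := PosDef.one.add_posSemidef hXpsd
  have h3 : (1 + c • X)⁻¹ = 1 - c • Y := Matrix.inv_eq_left_inv hinv
  rw [← h3]
  exact hpd.inv

/-- Eigenvalue bound for the resolvent matrix of a piece. -/
lemma eig_lt (a : Matrix d K ℂ) {C : Matrix d d ℂ} (hC : C.PosSemidef) {ap be t : ℝ}
    (hap : 0 ≤ ap) (hbe : 0 ≤ be) (ht : 0 < t)
    (hP : (Pm a (Em (a * aᴴ) C ap be t)).IsHermitian) (i : K) :
    ap * hP.eigenvalues i < 1 := by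
  have h1 := one_sub_posDef a hC hap hbe ht
  have h2 : hf hP (fun x => (-ap) * x + 1) = 1 - (ap : ℂ) • Pm a (Em (a * aᴴ) C ap be t) := by
    rw [hf_affine]
    simp only [Complex.ofReal_neg, Complex.ofReal_one, one_smul, neg_smul]
    abel
  rw [← h2] at h1
  have := pos_of_posDef_hf hP h1 i
  linarith

/-- Determinant of the block matrix through the resolvents. -/
theorem det_block (a b : Matrix d K ℂ) (E₁ E₂ : Matrix d d ℂ) (hE₁ : IsUnit E₁.det) (hE₂ : IsUnit E₂.det)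
    (s₀ s₁ : ℝ) :
    (fromBlocks E₁ 0 0 E₂ - (fromRows ((s₀ : ℂ) • a) ((s₁ : ℂ) • b)) * (fromRows ((s₀ : ℂ) • a) ((s₁ : ℂ) • b))ᴴ).det
      = E₁.det * E₂.det * (1 - ((s₀ ^ 2 : ℝ) : ℂ) • Pm a E₁ - ((s₁ ^ 2 : ℝ) : ℂ) • Pm b E₂).det := by
  set X := fromRows ((s₀ : ℂ) • a) ((s₁ : ℂ) • b) with hX
  set EE : Matrix (d ⊕ d) (d ⊕ d) ℂ := fromBlocks E₁ 0 0 E₂ with hEE
  set EEi : Matrix (d ⊕ d) (d ⊕ d) ℂ := fromBlocks E₁⁻¹ 0 0 E₂⁻¹ with hEEi
  have hmul : EE * EEi = 1 := by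
    rw [hEE, hEEi, fromBlocks_multiply]
    simp [mul_nonsing_inv _ hE₁, mul_nonsing_inv _ hE₂]
  have h1 : EE - X * Xᴴ = EE * (1 - (EEi * X) * Xᴴ) := by
    rw [Matrix.mul_sub, Matrix.mul_one, ← Matrix.mul_assoc, ← Matrix.mul_assoc, hmul, Matrix.one_mul]
  rw [h1, det_mul, det_one_sub_mul_comm]
  have hdet : EE.det = E₁.det * E₂.det := by
    rw [hEE, det_fromBlocks_zero₂₁]
  rw [hdet]
  congr 2
  -- compute `Xᴴ * (EEi * X)`
  have h2 : EEi * X = fromRows (E₁⁻¹ * ((s₀ : ℂ) • a)) (E₂⁻¹ * ((s₁ : ℂ) • b)) := by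
    rw [hEEi, hX, fromBlocks_mul_fromRows]
    simp
  have h3 : Xᴴ = fromCols (((s₀ : ℂ) • a)ᴴ) (((s₁ : ℂ) • b)ᴴ) := by
    rw [hX, conjTranspose_fromRows_eq_fromCols_conjTranspose]
  rw [h2, h3, fromCols_mul_fromRows]
  unfold Pm
  simp only [conjTranspose_smul, Matrix.smul_mul, Matrix.mul_smul, Complex.star_def, Complex.conj_ofReal,
    smul_smul]
  have e1 : ((s₀ : ℂ) * (s₀ : ℂ)) = ((s₀ ^ 2 : ℝ) : ℂ) := by
    push_cast
    ring
  have e2 : ((s₁ : ℂ) * (s₁ : ℂ)) = ((s₁ ^ 2 : ℝ) : ℂ) := by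
    push_cast
    ring
  rw [e1, e2, sub_sub]
  simp only [Matrix.mul_assoc]

end Crest.Agent.GAD
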