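import Crest.Agent.Lib.GADKey.Block

/-!
Eigenvalue-count comparisons for the resolvent matrix of a piece.
-/

set_option autoImplicit false

namespace Crest.Agent.GAD

open Matrix
open scoped ComplexOrder

section sub
variable {n : Type*} [Fintype n] [DecidableEq n] {X : Matrix n n ℂ} (hX : X.IsHermitian)

/-- Columns of the eigenvector unitary indexed by a subset of indices. -/
noncomputable def Vsub (p : n → Prop) : Matrix n {i // p i} ℂ :=
  (hX.eigenvectorUnitary : Matrix n n ℂ).submatrix id Subtype.val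

/-- Extension by zero of a vector of coefficients. -/
noncomputable def extZ (p : n → Prop) [DecidablePred p] (c : {i // p i} → ℂ) : n → ℂ :=
  fun i => if h : p i then c ⟨i, h⟩ else 0

lemma Vsub_mulVec (p : n → Prop) [DecidablePred p] (c : {i // p i} → ℂ) :
    Vsub hX p *ᵥ c = (hX.eigenvectorUnitary : Matrix n n ℂ) *ᵥ extZ p c := by
  ext i
  simp only [mulVec, dotProduct, Vsub, submatrix_apply, id, extZ]
  have h1 : ∑ j, (hX.eigenvectorUnitary : Matrix n n ℂ) i j * (if h : p j then c ⟨j, h⟩ else 0)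
      = ∑ j ∈ Finset.univ.filter p, (hX.eigenvectorUnitary : Matrix n n ℂ) i j * (if h : p j then c ⟨j, h⟩ else 0) := by
    rw [Finset.sum_filter_of_ne]
    intro j _ hj
    by_contra hp
    simp [hp] at hj
  rw [h1, Finset.sum_subtype (p := p) (Finset.univ.filter p) (fun x => by simp)
    (fun j => (hX.eigenvectorUnitary : Matrix n n ℂ) i j * (if h : p j then c ⟨j, h⟩ else 0))]
  apply Finset.sum_congr rfl
  intro j _
  rw [dif_pos j.2]

lemma coord_Vsub (p : n → Prop) [DecidablePred p] (c : {i // p i} → ℂ) :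
    coord hX (Vsub hX p *ᵥ c) = extZ p c := by
  rw [Vsub_mulVec]
  unfold coord
  rw [mulVec_mulVec, U_star_mul, one_mulVec]

/-- Strict comparison of weighted coefficient sums on the support. -/
lemma sum_extZ_lt (p : n → Prop) [DecidablePred p] (c : {i // p i} → ℂ) (hc : c ≠ 0)
    (g : n → ℝ) {t : ℝ} (hg : ∀ i, p i → t < g i) :
    t * ∑ i, Complex.normSq (extZ p c i) < ∑ i, g i * Complex.normSq (extZ p c i) := by
  rw [Finset.mul_sum, ← sub_pos, ← Finset.sum_sub_distrib]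
  obtain ⟨j, hj⟩ := Function.ne_iff.mp hc
  apply Finset.sum_pos'
  · intro i _
    by_cases hp : p i
    · have := hg i hp
      have h2 := Complex.normSq_nonneg (extZ p c i)
      nlinarith
    · simp [extZ, hp]
  · refine ⟨j.1, Finset.mem_univ _, ?_⟩
    have h1 : extZ p c j.1 = c j := by
      simp only [extZ]
      rw [dif_pos j.2]
    have h2 := hg j.1 j.2
    rw [h1]
    have h3 : 0 < Complex.normSq (c j) := Complex.normSq_pos.mpr (by simpa using hj)
    nlinarith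

lemma extZ_ne_zero (p : n → Prop) [DecidablePred p] (c : {i // p i} → ℂ) (hc : c ≠ 0) :
    extZ p c ≠ 0 := by
  obtain ⟨j, hj⟩ := Function.ne_iff.mp hc
  intro h0
  have := congrFun h0 j.1
  simp only [extZ] at this
  rw [dif_pos j.2] at this
  exact hj (by simpa using this)

lemma Vsub_mulVec_ne_zero (p : n → Prop) [DecidablePred p] (c : {i // p i} → ℂ) (hc : c ≠ 0) :
    Vsub hX p *ᵥ c ≠ 0 := by
  intro h0
  have h1 := coord_Vsub hX p c
  rw [h0] at h1
  simp only [coord, mulVec_zero] at h1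
  exact extZ_ne_zero p c hc h1.symm

end sub

section cs
variable {n : Type*} [Fintype n] [DecidableEq n]

/-- Cauchy–Schwarz for the form of a positive semidefinite matrix. -/
lemma cs_form {E : Matrix n n ℂ} (hE : E.PosSemidef) (v z : n → ℂ) :
    (star v ⬝ᵥ (E *ᵥ z)).re ^ 2 ≤ (star v ⬝ᵥ (E *ᵥ v)).re * (star z ⬝ᵥ (E *ᵥ z)).re := by
  have hsym : (star z ⬝ᵥ (E *ᵥ v)).re = (star v ⬝ᵥ (E *ᵥ z)).re := by
    rw [star_dotProduct, star_mulVec, hE.isHermitian.eq, ← dotProduct_mulVec]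
    simp [Complex.conj_re]
  have hq : ∀ s : ℝ, 0 ≤ (star v ⬝ᵥ (E *ᵥ v)).re * (s * s) + (-2 * (star v ⬝ᵥ (E *ᵥ z)).re) * s
      + (star z ⬝ᵥ (E *ᵥ z)).re := by
    intro s
    have h0 := hE.re_dotProduct_nonneg (z - (s : ℂ) • v)
    have e : star (z - (s : ℂ) • v) ⬝ᵥ (E *ᵥ (z - (s : ℂ) • v))
        = star z ⬝ᵥ (E *ᵥ z) - (s : ℂ) * (star z ⬝ᵥ (E *ᵥ v)) - (s : ℂ) * (star v ⬝ᵥ (E *ᵥ z))
          + (s : ℂ) * (s : ℂ) * (star v ⬝ᵥ (E *ᵥ v)) := by
      simp only [star_sub, star_smul, mulVec_sub, mulVec_smul, sub_dotProduct, dotProduct_sub,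
        smul_dotProduct, dotProduct_smul, smul_eq_mul, Complex.star_def, Complex.conj_ofReal]
      ring
    simp only [RCLike.re_to_complex] at h0
    rw [e] at h0
    simp only [Complex.add_re, Complex.sub_re, Complex.re_ofReal_mul, ← Complex.ofReal_mul, hsym] at h0
    nlinarith
  have hd := discrim_le_zero hq
  unfold discrim at hd
  nlinarith

end cs

section count
variable {d K : Type*} [Fintype d] [DecidableEq d] [Fintype K] [DecidableEq K]

lemma form_u (a : Matrix d K ℂ) (x : d → ℂ) :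
    star (aᴴ *ᵥ x) ⬝ᵥ (aᴴ *ᵥ x) = star x ⬝ᵥ ((a * aᴴ) *ᵥ x) := by
  rw [star_mulVec, conjTranspose_conjTranspose, ← dotProduct_mulVec, mulVec_mulVec]

lemma form_P (a : Matrix d K ℂ) (E : Matrix d d ℂ) (x : d → ℂ) :
    star (aᴴ *ᵥ x) ⬝ᵥ (Pm a E *ᵥ (aᴴ *ᵥ x))
      = star ((a * aᴴ) *ᵥ x) ⬝ᵥ (E⁻¹ *ᵥ ((a * aᴴ) *ᵥ x)) := by
  unfold Pm
  have h1 : (aᴴ * E⁻¹ * a) *ᵥ (aᴴ *ᵥ x) = aᴴ *ᵥ (E⁻¹ *ᵥ ((a * aᴴ) *ᵥ x)) := by
    simp only [mulVec_mulVec, Matrix.mul_assoc]
  rw [h1, star_mulVec, conjTranspose_conjTranspose, ← dotProduct_mulVec, star_mulVec,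
    conjTranspose_mul, conjTranspose_conjTranspose, ← dotProduct_mulVec, mulVec_mulVec]

lemma quad_le_trace {C : Matrix d d ℂ} (hC : C.PosSemidef) (x : d → ℂ) :
    (star x ⬝ᵥ (C *ᵥ x)).re ≤ C.trace.re * (star x ⬝ᵥ x).re := by
  have hH := hC.isHermitian
  rw [quad_self_re hH, norm_coord_re hH, Finset.mul_sum]
  apply Finset.sum_le_sum
  intro i _
  apply mul_le_mul_of_nonneg_right _ (Complex.normSq_nonneg _)
  rw [hH.trace_eq_sum_eigenvalues]
  have : (∑ i, ((hH.eigenvalues i : ℝ) : ℂ)).re = ∑ i, hH.eigenvalues i := by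
    rw [Complex.re_sum]
    simp
  erw [this]
  exact Finset.single_le_sum (f := hH.eigenvalues) (fun j _ => hC.eigenvalues_nonneg j) (Finset.mem_univ i)

theorem count_piece (a : Matrix d K ℂ) {C : Matrix d d ℂ} (hC : C.PosSemidef) {ap be t c₁ ξ : ℝ}
    (hap : 0 ≤ ap) (hbe : 0 ≤ be) (ht : 0 < t) (hξ : 0 < ξ) (hc : c₁ + ap = 1 / ξ)
    (hY : ((c₁ : ℂ) • (a * aᴴ) - (be : ℂ) • C).IsHermitian)
    (hP : (Pm a (Em (a * aᴴ) C ap be t)).IsHermitian) :
    (Finset.univ.filter (fun j => t < hY.eigenvalues j)).card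
      ≤ (Finset.univ.filter (fun i => ξ < hP.eigenvalues i)).card := by
  classical
  have hApsd : (a * aᴴ).PosSemidef := posSemidef_self_mul_conjTranspose a
  have hE := Em_posDef hApsd hC hap hbe ht
  set E := Em (a * aᴴ) C ap be t with hEdef
  have hEu : IsUnit E.det := (isUnit_iff_isUnit_det E).mp hE.isUnit
  have := card_le_card_eig hP ξ (aᴴ * Vsub hY (fun j => t < hY.eigenvalues j)) (fun c hc0 => ?_)
  · rwa [Fintype.card_subtype] at this
  rw [← mulVec_mulVec]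
  set x := Vsub hY (fun j => t < hY.eigenvalues j) *ᵥ c with hx
  have hxne : x ≠ 0 := Vsub_mulVec_ne_zero hY _ c hc0
  have hquad : t * (star x ⬝ᵥ x).re
      < (star x ⬝ᵥ (((c₁ : ℂ) • (a * aᴴ) - (be : ℂ) • C) *ᵥ x)).re := by
    rw [quad_self_re hY, norm_coord_re hY, hx, coord_Vsub]
    exact sum_extZ_lt _ c hc0 _ (fun i hi => hi)
  set XA := (star x ⬝ᵥ ((a * aᴴ) *ᵥ x)).re with hXA
  set XC := (star x ⬝ᵥ (C *ᵥ x)).re with hXC
  set X1 := (star x ⬝ᵥ x).re with hX1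
  have eY : (star x ⬝ᵥ (((c₁ : ℂ) • (a * aᴴ) - (be : ℂ) • C) *ᵥ x)).re = c₁ * XA - be * XC := by
    simp only [sub_mulVec, smul_mulVec, dotProduct_sub, dotProduct_smul, smul_eq_mul, Complex.sub_re,
      Complex.re_ofReal_mul]
    rfl
  have eE : (star x ⬝ᵥ (E *ᵥ x)).re = ap * XA + be * XC + t * X1 := by
    rw [hEdef]
    unfold Em
    simp only [add_mulVec, smul_mulVec, dotProduct_add, dotProduct_smul, smul_eq_mul, Complex.add_re,
      Complex.re_ofReal_mul, one_mulVec]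
    rfl
  rw [eY] at hquad
  have hEpos : 0 < (star x ⬝ᵥ (E *ᵥ x)).re := hE.re_dotProduct_pos hxne
  -- the intermediate vector
  set z := E⁻¹ *ᵥ ((a * aᴴ) *ᵥ x) with hz
  have hEz : E *ᵥ z = (a * aᴴ) *ᵥ x := by
    rw [hz, mulVec_mulVec, mul_nonsing_inv _ hEu, one_mulVec]
  have hcs := cs_form hE.posSemidef x z
  rw [hEz] at hcs
  set XE := (star x ⬝ᵥ (E *ᵥ x)).re with hXE
  have hZZ : (star z ⬝ᵥ ((a * aᴴ) *ᵥ x)).re = (star (aᴴ *ᵥ x) ⬝ᵥ (Pm a E *ᵥ (aᴴ *ᵥ x))).re := by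
    rw [form_P, ← hz, star_dotProduct]
    simp [Complex.conj_re]
  rw [hZZ] at hcs
  set ZZ := (star (aᴴ *ᵥ x) ⬝ᵥ (Pm a E *ᵥ (aᴴ *ᵥ x))).re with hZZdef
  have hu : (star (aᴴ *ᵥ x) ⬝ᵥ (aᴴ *ᵥ x)).re = XA := by rw [form_u]
  rw [hu]
  -- arithmetic
  have hXA0 : XE * ξ < XA := by
    have e1 : XE < (ap + c₁) * XA := by rw [eE]; nlinarith
    have e2 : (ap + c₁) * ξ = 1 := by
      rw [add_comm, hc]
      field_simp
    calc XE * ξ < (ap + c₁) * XA * ξ := mul_lt_mul_of_pos_right e1 hξ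
      _ = XA * ((ap + c₁) * ξ) := by ring
      _ = XA := by rw [e2, mul_one]
  have hXApos : 0 < XA := lt_trans (mul_pos hEpos hξ) hXA0
  by_contra hcon
  push Not at hcon
  have hZZpos : 0 < ZZ := by
    have : 0 < XE * ZZ := lt_of_lt_of_le (by positivity) hcs
    exact (pos_iff_pos_of_mul_pos this).mp hEpos
  have h1 : XA ^ 2 ≤ XE * (ξ * XA) := hcs.trans (mul_le_mul_of_nonneg_left hcon hEpos.le)
  have h2 : XE * (ξ * XA) < XA * XA := by
    calc XE * (ξ * XA) = (XE * ξ) * XA := by ring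
      _ < XA * XA := mul_lt_mul_of_pos_right hXA0 hXApos
  nlinarith

/-- The second comparison: eigenvalues of `Y` dominate those of `r₁ A - β`. -/
theorem count_b {A C : Matrix d d ℂ} (hAh : A.IsHermitian) (hApsd : A.PosSemidef) (hC : C.PosSemidef)
    {c₁ r₁ be t : ℝ} (hr : r₁ ≤ c₁) (hbe : 0 ≤ be) (hTr : C.trace.re ≤ 1)
    (hY : ((c₁ : ℂ) • A - (be : ℂ) • C).IsHermitian) :
    (Finset.univ.filter (fun l => t < r₁ * hAh.eigenvalues l - be)).card
      ≤ (Finset.univ.filter (fun j => t < hY.eigenvalues j)).card := by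
  classical
  have := card_le_card_eig hY t (Vsub hAh (fun l => t < r₁ * hAh.eigenvalues l - be)) (fun c hc0 => ?_)
  · rwa [Fintype.card_subtype] at this
  set x := Vsub hAh (fun l => t < r₁ * hAh.eigenvalues l - be) *ᵥ c with hx
  set XA := (star x ⬝ᵥ (A *ᵥ x)).re with hXA
  set XC := (star x ⬝ᵥ (C *ᵥ x)).re with hXC
  set X1 := (star x ⬝ᵥ x).re with hX1
  have eY : (star x ⬝ᵥ (((c₁ : ℂ) • A - (be : ℂ) • C) *ᵥ x)).re = c₁ * XA - be * XC := by
    simp only [sub_mulVec, smul_mulVec, dotProduct_sub, dotProduct_smul, smul_eq_mul, Complex.sub_re,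
      Complex.re_ofReal_mul]
    rfl
  rw [eY]
  have hXA0 : 0 ≤ XA := hApsd.re_dotProduct_nonneg x
  have hX10 : 0 ≤ X1 := by
    have h1 := (PosSemidef.one (n := d) (R := ℂ)).re_dotProduct_nonneg x
    simpa using h1
  have hXC1 : XC ≤ X1 := by
    have h1 := quad_le_trace hC x
    have : C.trace.re * X1 ≤ 1 * X1 := mul_le_mul_of_nonneg_right hTr hX10
    linarith
  have hmain : t * X1 < r₁ * XA - be * X1 := by
    have h1 : t * X1 < ∑ i, (r₁ * hAh.eigenvalues i - be) * Complex.normSq (coord hAh x i) := by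
      rw [hX1, norm_coord_re hAh, hx, coord_Vsub]
      exact sum_extZ_lt _ c hc0 (fun i => r₁ * hAh.eigenvalues i - be) (fun i hi => hi)
    have h2 : ∑ i, (r₁ * hAh.eigenvalues i - be) * Complex.normSq (coord hAh x i) = r₁ * XA - be * X1 := by
      rw [hXA, hX1, quad_self_re hAh, norm_coord_re hAh, Finset.mul_sum, Finset.mul_sum,
        ← Finset.sum_sub_distrib]
      apply Finset.sum_congr rfl
      intro i _
      ring
    linarith
  have h3 : r₁ * XA ≤ c₁ * XA := mul_le_mul_of_nonneg_right hr hXA0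
  have h4 : be * XC ≤ be * X1 := mul_le_mul_of_nonneg_left hXC1 hbe
  linarith

/-- Every eigenvalue of `c₁ A - be C` is at most `c₁ Tr A`. -/
lemma eig_Y_le {A C : Matrix d d ℂ} (hApsd : A.PosSemidef) (hC : C.PosSemidef)
    {c₁ be : ℝ} (hc : 0 ≤ c₁) (hbe : 0 ≤ be)
    (hY : ((c₁ : ℂ) • A - (be : ℂ) • C).IsHermitian) (j : d) :
    hY.eigenvalues j ≤ c₁ * A.trace.re := by
  set e := (hY.eigenvectorUnitary : Matrix d d ℂ) *ᵥ Pi.single j 1 with he
  have hcoord : coord hY e = Pi.single j 1 := coord_col hY j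
  have h1 : (star e ⬝ᵥ (((c₁ : ℂ) • A - (be : ℂ) • C) *ᵥ e)).re = hY.eigenvalues j := by
    rw [quad_self_re hY, hcoord, Finset.sum_eq_single j]
    · simp
    · intro i _ hi
      simp [hi]
    · simp
  have h2 : (star e ⬝ᵥ e).re = 1 := by
    rw [norm_coord_re hY, hcoord, Finset.sum_eq_single j]
    · simp
    · intro i _ hi
      simp [hi]
    · simp
  have eY : (star e ⬝ᵥ (((c₁ : ℂ) • A - (be : ℂ) • C) *ᵥ e)).re
      = c₁ * (star e ⬝ᵥ (A *ᵥ e)).re - be * (star e ⬝ᵥ (C *ᵥ e)).re := by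
    simp only [sub_mulVec, smul_mulVec, dotProduct_sub, dotProduct_smul, smul_eq_mul, Complex.sub_re,
      Complex.re_ofReal_mul]
  rw [← h1, eY]
  have h3 := quad_le_trace hApsd e
  rw [h2, mul_one] at h3
  have h4 : 0 ≤ (star e ⬝ᵥ (C *ᵥ e)).re := hC.re_dotProduct_nonneg e
  have h5 : 0 ≤ be * (star e ⬝ᵥ (C *ᵥ e)).re := mul_nonneg hbe h4
  have h6 := mul_le_mul_of_nonneg_left h3 hc
  linarith

/-- The sum of the eigenvalues of `c₁ A - be C`. -/
lemma sum_eig_Y {A C : Matrix d d ℂ} {c₁ be : ℝ}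
    (hY : ((c₁ : ℂ) • A - (be : ℂ) • C).IsHermitian) :
    ∑ j, hY.eigenvalues j = c₁ * A.trace.re - be * C.trace.re := by
  have h1 := hY.trace_eq_sum_eigenvalues
  have h2 := congrArg Complex.re h1
  rw [trace_sub, trace_smul, trace_smul] at h2
  simp only [smul_eq_mul, Complex.sub_re, Complex.re_ofReal_mul] at h2
  rw [h2]
  rw [Complex.re_sum]
  simp

end count

end Crest.Agent.GAD
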