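import Crest.Agent.Lib.GADKey.Scalar

/-!
Integrals of counting functions, of `log (x + t)`, and the asymptotics as `T → ∞`.
-/

set_option autoImplicit false

namespace Crest.Agent.GAD

open MeasureTheory Filter Topology

/-- The counting function `#{j : y j > t}`. -/
noncomputable def cnt {ι : Type*} [Fintype ι] (y : ι → ℝ) (t : ℝ) : ℝ :=
  ∑ j, if t < y j then (1 : ℝ) else 0

lemma cnt_eq_card {ι : Type*} [Fintype ι] (y : ι → ℝ) (t : ℝ) :
    cnt y t = ((Finset.univ.filter (fun j => t < y j)).card : ℝ) := by
  classical
  unfold cnt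
  rw [Finset.card_filter]
  push_cast
  rfl

lemma single_antitone (y : ℝ) : Antitone (fun t : ℝ => if t < y then (1 : ℝ) else 0) := by
  intro a b hab
  by_cases h : b < y
  · have : a < y := lt_of_le_of_lt hab h
    simp [h, this]
  · simp only [h, if_false]
    split_ifs <;> norm_num

lemma single_integral (y T : ℝ) (hT : 0 ≤ T) :
    ∫ t in (0 : ℝ)..T, (if t < y then (1 : ℝ) else 0) = min (max y 0) T := by
  set x := min (max y 0) T with hx
  have hx0 : 0 ≤ x := le_min (le_max_right _ _) hT
  have hxT : x ≤ T := min_le_right _ _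
  have hanti := single_antitone y
  rw [← intervalIntegral.integral_add_adjacent_intervals (b := x) hanti.intervalIntegrable
    hanti.intervalIntegrable]
  have h1 : ∫ t in (0 : ℝ)..x, (if t < y then (1 : ℝ) else 0) = ∫ _t in (0 : ℝ)..x, (1 : ℝ) := by
    apply intervalIntegral.integral_congr_Ioo_of_le hx0
    intro t ht
    have h2 : t < max y 0 := lt_of_lt_of_le ht.2 (min_le_left _ _)
    have h3 : t < y := by
      rcases lt_max_iff.mp h2 with h | h
      · exact h
      · exact absurd h (not_lt.mpr ht.1.le)
    simp [h3]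
  have h2 : ∫ t in x..T, (if t < y then (1 : ℝ) else 0) = ∫ _t in x..T, (0 : ℝ) := by
    apply intervalIntegral.integral_congr_Ioo_of_le hxT
    intro t ht
    have h3 : ¬ t < y := by
      rcases min_choice (max y 0) T with h | h
      · have : max y 0 < t := by
          have := ht.1
          rwa [hx, h] at this
        exact not_lt.mpr (le_of_lt (lt_of_le_of_lt (le_max_left _ _) this))
      · exfalso
        have h4 := ht.1
        have h5 := ht.2
        rw [hx, h] at h4
        linarith
    simp [h3]
  rw [h1, h2]
  simp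

lemma cnt_antitone {ι : Type*} [Fintype ι] (y : ι → ℝ) : Antitone (cnt y) := by
  intro a b hab
  unfold cnt
  exact Finset.sum_le_sum (fun j _ => single_antitone (y j) hab)

lemma cnt_integrable {ι : Type*} [Fintype ι] (y : ι → ℝ) (a b : ℝ) :
    IntervalIntegrable (cnt y) volume a b :=
  (cnt_antitone y).intervalIntegrable

lemma cnt_integral {ι : Type*} [Fintype ι] (y : ι → ℝ) {T : ℝ} (hT : 0 ≤ T) :
    ∫ t in (0 : ℝ)..T, cnt y t = ∑ j, min (max (y j) 0) T := by
  unfold cnt
  rw [intervalIntegral.integral_finsetSum]
  · exact Finset.sum_congr rfl (fun j _ => single_integral (y j) T hT)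
  · exact fun j _ => (single_antitone (y j)).intervalIntegrable

lemma log_add_integrable {x : ℝ} (T : ℝ) :
    IntervalIntegrable (fun t => Real.log (x + t)) volume 0 T := by
  have h : IntervalIntegrable Real.log volume (x + 0) (x + T) := intervalIntegral.intervalIntegrable_log'
  have h2 := (h.comp_add_left x (by simp))
  simpa using h2

lemma log_add_integral (x T : ℝ) :
    ∫ t in (0 : ℝ)..T, Real.log (x + t) = Jb x T := by
  rw [intervalIntegral.integral_comp_add_left (fun y => Real.log y) x, integral_log]
  unfold Jb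
  simp
  ring

/-- Asymptotics of `Jb`. -/
lemma Jb_asymp (x : ℝ) :
    Tendsto (fun R => Jb x R - R * Real.log R + R - x * Real.log R) atTop
      (𝓝 (x + Real.negMulLog x)) := by
  have h1 := Real.tendsto_mul_log_one_add_div_atTop x
  have h2 : Tendsto (fun R : ℝ => Real.log (1 + x / R)) atTop (𝓝 0) := by
    have h3 : Tendsto (fun r : ℝ => 1 + x / r) atTop (𝓝 1) := by
      have := (tendsto_const_nhds (x := (1:ℝ))).add (tendsto_id.const_div_atTop x)
      simpa using this
    have := (Real.continuousAt_log (one_ne_zero)).tendsto.comp h3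
    simpa [Function.comp_def] using this
  have h3 := (h1.add (h2.const_mul x)).sub (tendsto_const_nhds (x := x * Real.log x))
  have e : x + x * 0 - x * Real.log x = x + Real.negMulLog x := by
    unfold Real.negMulLog
    ring
  rw [e] at h3
  refine h3.congr' ?_
  filter_upwards [eventually_gt_atTop (0 : ℝ), eventually_gt_atTop (-x)] with R hR hR2
  have e1 : 1 + x / R = (x + R) / R := by
    field_simp
    ring
  have hxR : 0 < x + R := by linarith
  rw [e1, Real.log_div hxR.ne' hR.ne']
  unfold Jb
  ring

/-- Asymptotics of the layer antiderivative at shift `0`. -/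
lemma PHI_asymp (lp lm θ B : ℝ) :
    Tendsto (fun R => PHI lp lm θ B 0 R - ((1 - θ) * lp + θ * lm - B) * Real.log R) atTop
      (𝓝 (((1 - θ) * lp + θ * lm - B) + (1 - θ) * Real.negMulLog lp + θ * Real.negMulLog lm
        - Real.negMulLog B)) := by
  have h := (((Jb_asymp lp).const_mul (1 - θ)).add ((Jb_asymp lm).const_mul θ)).sub (Jb_asymp B)
  have e : (1 - θ) * (lp + Real.negMulLog lp) + θ * (lm + Real.negMulLog lm) - (B + Real.negMulLog B)
      = ((1 - θ) * lp + θ * lm - B) + (1 - θ) * Real.negMulLog lp + θ * Real.negMulLog lm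
        - Real.negMulLog B := by ring
  rw [e] at h
  refine h.congr ?_
  intro R
  unfold PHI
  simp only [add_zero]
  ring

/-- Scaled asymptotics: the eigenvalue `s` appears through `negMulLog s`. -/
lemma sPHI_asymp (lp lm θ B : ℝ) {s : ℝ} (hs : 0 ≤ s) :
    Tendsto (fun T => s * PHI lp lm θ B 0 (T / s) - s * (((1 - θ) * lp + θ * lm - B) * Real.log T)) atTop
      (𝓝 (s * (((1 - θ) * lp + θ * lm - B) + (1 - θ) * Real.negMulLog lp + θ * Real.negMulLog lm
        - Real.negMulLog B) + ((1 - θ) * lp + θ * lm - B) * Real.negMulLog s)) := by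
  rcases hs.eq_or_lt with rfl | hs
  · simp
  · have hT : Tendsto (fun T : ℝ => T / s) atTop atTop := tendsto_id.atTop_div_const hs
    have h := ((PHI_asymp lp lm θ B).comp hT).const_mul s
    have h2 := h.add_const (((1 - θ) * lp + θ * lm - B) * Real.negMulLog s)
    refine h2.congr' ?_
    filter_upwards [eventually_gt_atTop (0 : ℝ)] with T hT0
    simp only [Function.comp_apply]
    rw [Real.log_div hT0.ne' hs.ne']
    unfold Real.negMulLog
    ring

end Crest.Agent.GAD
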