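import Crest.Agent.Lib.GADKey.Master
import Crest.Agent.Lib.GAD.Edge
import Crest.Agent.Lib.GAD.Scalar

/-!
The key inequality `GadKey`: main case by the master inequality, edge cases by `Lib.GAD.Edge`.
-/

set_option autoImplicit false

namespace Crest.Agent.GAD

open Matrix
open scoped ComplexOrder
open Crest.Quantum Crest.MathPhysics.AmpDamp

section numbers

open Crest.Agent.Lib.GAD (gadLp gadLm gadP gadTh)

variable {γ ν q : ℝ}

/-- The scalar data for the GAD numbers. -/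
theorem twoPiece_gad (hγ0 : 0 < γ) (hγ1 : γ < 1) (hν0 : 0 ≤ ν) (hν1 : ν ≤ 1) (hq0 : 0 < q) (hq1 : q < 1) :
    TwoPiece (gadLp γ ν q) (gadLm γ ν q) (gadTh γ ν q) q (1 - γ * ν) (γ * (1 - ν)) (γ * ν) (1 - γ + γ * ν) := by
  have hlm := Crest.Agent.Lib.GAD.gadLm_pos hγ0 hγ1 hν0 hν1 hq0 hq1
  have hlt := Crest.Agent.Lib.GAD.gadLm_lt_gadLp (ν := ν) hγ1 hq0 hq1
  have hsum := Crest.Agent.Lib.GAD.gadLp_add_gadLm (γ := γ) (ν := ν) (p := q)
  have hprod := Crest.Agent.Lib.GAD.gadLp_mul_gadLm (ν := ν) hγ1 hq0 hq1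
  have hθ0 := Crest.Agent.Lib.GAD.gadTh_pos (ν := ν) hγ1 hq0 hq1
  have hθ1 := Crest.Agent.Lib.GAD.gadTh_lt_one (ν := ν) hγ1 hq0 hq1
  have hV := Crest.Agent.Lib.GAD.gadV_eq γ ν q
  have hk := Crest.Agent.Lib.GAD.gad_k2_le (γ := γ) hν0 hν1
  have hPdef : gadP γ ν q = (1 - γ) * q + γ * ν := rfl
  set lp := gadLp γ ν q with hlp
  set lm := gadLm γ ν q with hlmd
  set θ := gadTh γ ν q with hθd
  set p' := gadP γ ν q with hp'
  have hc : 0 < lp - lm := by linarith
  have hθe : θ * (lp - lm) = lp - (1 - p') := by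
    change (lp - (1 - p')) / (lp - lm) * (lp - lm) = _
    exact div_mul_cancel₀ _ hc.ne'
  have hw1 : (1 - θ) * lp + θ * lm = 1 - p' := by linarith
  have hw2 : θ * lp + (1 - θ) * lm = p' := by linarith
  have hα : 0 < 1 - γ * ν := by nlinarith
  have hβ' : 0 < 1 - γ + γ * ν := by nlinarith [mul_nonneg hγ0.le hν0]
  have hβ : 0 ≤ γ * (1 - ν) := mul_nonneg hγ0.le (by linarith)
  have hα' : 0 ≤ γ * ν := mul_nonneg hγ0.le hν0
  have hp'1 : 1 - p' = (1 - γ * ν) * (1 - q) + γ * (1 - ν) * q := by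
    rw [hPdef]
    ring
  have hp'2 : p' = γ * ν * (1 - q) + (1 - γ + γ * ν) * q := by
    rw [hPdef]
    ring
  refine ⟨⟨hlm, hlt, hθ0, hθ1, mul_nonneg hβ hq0.le, by linarith, hα, ?_, ?_⟩,
    ⟨hlm, hlt, by linarith, by linarith, mul_nonneg hα' (by linarith), hq0, hβ', ?_, ?_⟩, ?_, hβ, hα'⟩
  · rw [hw1, hp'1]
    ring
  · rw [hw2, hprod, hV]
    have h1 : 0 ≤ (1 - q) * ((1 - γ * ν) * (γ * ν) * (1 - q)
        + ((1 - γ * ν) * (1 - γ + γ * ν) - (1 - γ)) * q) :=
      mul_nonneg (by linarith) (add_nonneg (mul_nonneg (mul_nonneg hα.le hα') (by linarith))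
        (mul_nonneg (by linarith) hq0.le))
    have e : p' * (1 - p') - (1 - γ) * q * (1 - q) - γ * (1 - ν) * q * p'
        = (1 - q) * ((1 - γ * ν) * (γ * ν) * (1 - q)
        + ((1 - γ * ν) * (1 - γ + γ * ν) - (1 - γ)) * q) := by
      rw [hPdef]
      ring
    linarith
  · rw [show 1 - (1 - θ) = θ by ring, hw2, hp'2]
    ring
  · rw [show 1 - (1 - θ) = θ by ring, hw1, hprod, hV]
    have h1 : 0 ≤ q * ((1 - γ + γ * ν) * (γ * (1 - ν)) * q
        + ((1 - γ * ν) * (1 - γ + γ * ν) - (1 - γ)) * (1 - q)) :=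
      mul_nonneg hq0.le (add_nonneg (mul_nonneg (mul_nonneg hβ'.le hβ) hq0.le)
        (mul_nonneg (by linarith) (by linarith)))
    have e : p' * (1 - p') - (1 - γ) * q * (1 - q) - γ * ν * (1 - q) * (1 - p')
        = q * ((1 - γ + γ * ν) * (γ * (1 - ν)) * q
        + ((1 - γ * ν) * (1 - γ + γ * ν) - (1 - γ)) * (1 - q)) := by
      rw [hPdef]
      ring
    linarith
  · -- the product of the two constants is `1 - γ`
    have : aNull lp lm θ (1 - q) * aNull lp lm (1 - θ) q = 1 - γ := by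
      have hA := Crest.Agent.Lib.GAD.gadA0_mul_gadB0 (ν := ν) hγ1 hq0 hq1
      have e1 : aNull lp lm θ (1 - q) = Crest.Agent.Lib.GAD.gadA0 γ ν q := by
        unfold aNull Crest.Agent.Lib.GAD.gadA0
        rw [← hp', ← hlp, mul_comm (lp - lm), hθe]
      have e2 : aNull lp lm (1 - θ) q = Crest.Agent.Lib.GAD.gadB0 γ ν q := by
        unfold aNull Crest.Agent.Lib.GAD.gadB0
        rw [← hp', ← hlp]
        congr 1
        have : (lp - lm) * (1 - θ) = (lp - lm) - θ * (lp - lm) := by ring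
        rw [this, hθe]
        linarith
      rw [e1, e2, hA]
    rw [this]
    exact hk

/-- The product of the two square roots. -/
theorem sqrt_mul_gad (hγ0 : 0 < γ) (hγ1 : γ < 1) (hν0 : 0 ≤ ν) (hν1 : ν ≤ 1) (hq0 : 0 < q) (hq1 : q < 1) :
    Real.sqrt (aNull (gadLp γ ν q) (gadLm γ ν q) (gadTh γ ν q) (1 - q))
      * Real.sqrt (aNull (gadLp γ ν q) (gadLm γ ν q) (1 - gadTh γ ν q) q) = Real.sqrt (1 - γ) := by
  have hlt := Crest.Agent.Lib.GAD.gadLm_lt_gadLp (ν := ν) hγ1 hq0 hq1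
  have hsum := Crest.Agent.Lib.GAD.gadLp_add_gadLm (γ := γ) (ν := ν) (p := q)
  have hA := Crest.Agent.Lib.GAD.gadA0_mul_gadB0 (ν := ν) hγ1 hq0 hq1
  have h0 := (twoPiece_gad hγ0 hγ1 hν0 hν1 hq0 hq1).h₁
  have hpos := aNull_pos h0
  set lp := gadLp γ ν q with hlp
  set lm := gadLm γ ν q with hlmd
  set θ := gadTh γ ν q with hθd
  set p' := gadP γ ν q with hp'
  have hc : 0 < lp - lm := by linarith
  have hθe : θ * (lp - lm) = lp - (1 - p') := by
    change (lp - (1 - p')) / (lp - lm) * (lp - lm) = _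
    exact div_mul_cancel₀ _ hc.ne'
  have e1 : aNull lp lm θ (1 - q) = Crest.Agent.Lib.GAD.gadA0 γ ν q := by
    unfold aNull Crest.Agent.Lib.GAD.gadA0
    rw [← hp', ← hlp, mul_comm (lp - lm), hθe]
  have e2 : aNull lp lm (1 - θ) q = Crest.Agent.Lib.GAD.gadB0 γ ν q := by
    unfold aNull Crest.Agent.Lib.GAD.gadB0
    rw [← hp', ← hlp]
    congr 1
    have : (lp - lm) * (1 - θ) = (lp - lm) - θ * (lp - lm) := by ring
    rw [this, hθe]
    linarith
  rw [← Real.sqrt_mul hpos.le, e1, e2, hA]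

end numbers

section matrices

variable {d : Type*} [Fintype d] [DecidableEq d]

/-- A row block of a matrix. -/
def rowB {K : Type*} (R : Matrix (Bool × d) K ℂ) (s : Bool) : Matrix d K ℂ :=
  R.submatrix (fun i => (s, i)) id

lemma rowB_mul (R : Matrix (Bool × d) (Bool × d) ℂ) (hR : R.IsHermitian) (s t : Bool) :
    rowB R s * (rowB R t)ᴴ = block (R * R) s t := by
  ext i j
  simp only [rowB, block, Matrix.mul_apply, Matrix.of_apply, conjTranspose_apply, submatrix_apply, id]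
  apply Finset.sum_congr rfl
  intro k _
  congr 1
  have := congrFun (congrFun hR k) (t, j)
  simpa [conjTranspose_apply] using this

variable {γ ν : ℝ}

lemma M_ff (ρ : Matrix (Bool × d) (Bool × d) ℂ) (i j : d) :
    qubitTensor (gadMap γ ν) (id : Matrix d d ℂ → Matrix d d ℂ) ρ (false, i) (false, j)
      = ((1 - γ * ν : ℝ) : ℂ) * block ρ false false i j + ((γ * (1 - ν) : ℝ) : ℂ) * block ρ true true i j := by
  simp [qubitTensor, qubitCoeff, gadMap, Matrix.single_apply]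
  ring

lemma M_tt (ρ : Matrix (Bool × d) (Bool × d) ℂ) (i j : d) :
    qubitTensor (gadMap γ ν) (id : Matrix d d ℂ → Matrix d d ℂ) ρ (true, i) (true, j)
      = ((γ * ν : ℝ) : ℂ) * block ρ false false i j + ((1 - γ + γ * ν : ℝ) : ℂ) * block ρ true true i j := by
  simp [qubitTensor, qubitCoeff, gadMap, Matrix.single_apply]
  ring

lemma M_ft (ρ : Matrix (Bool × d) (Bool × d) ℂ) (i j : d) :
    qubitTensor (gadMap γ ν) (id : Matrix d d ℂ → Matrix d d ℂ) ρ (false, i) (true, j)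
      = ((Real.sqrt (1 - γ) : ℝ) : ℂ) * block ρ false true i j := by
  simp [qubitTensor, qubitCoeff, gadMap, Matrix.single_apply]

lemma M_tf (ρ : Matrix (Bool × d) (Bool × d) ℂ) (i j : d) :
    qubitTensor (gadMap γ ν) (id : Matrix d d ℂ → Matrix d d ℂ) ρ (true, i) (false, j)
      = ((Real.sqrt (1 - γ) : ℝ) : ℂ) * block ρ true false i j := by
  simp [qubitTensor, qubitCoeff, gadMap, Matrix.single_apply]

/-- The determinant of `M + t` as a block determinant. -/
lemma det_M_add (R : Matrix (Bool × d) (Bool × d) ℂ) (hR : R.IsHermitian) (t : ℝ) :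
    (qubitTensor (gadMap γ ν) (id : Matrix d d ℂ → Matrix d d ℂ) (R * R)
        + (t : ℂ) • (1 : Matrix (Bool × d) (Bool × d) ℂ)).det
      = (Mtm (rowB R false) (rowB R true) (1 - γ * ν) (γ * (1 - ν)) (γ * ν) (1 - γ + γ * ν)
          (Real.sqrt (1 - γ)) t).det := by
  have key : qubitTensor (gadMap γ ν) (id : Matrix d d ℂ → Matrix d d ℂ) (R * R)
        + (t : ℂ) • (1 : Matrix (Bool × d) (Bool × d) ℂ)
      = (Mtm (rowB R false) (rowB R true) (1 - γ * ν) (γ * (1 - ν)) (γ * ν) (1 - γ + γ * ν)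
          (Real.sqrt (1 - γ)) t).submatrix (Equiv.boolProdEquivSum d) (Equiv.boolProdEquivSum d) := by
    ext ⟨s, i⟩ ⟨s', j⟩
    unfold Mtm
    cases s <;> cases s' <;>
      simp [Equiv.boolProdEquivSum, rowB_mul R hR, M_ff, M_tt, M_ft, M_tf, Matrix.one_apply,
        Matrix.add_apply, Matrix.smul_apply]
  rw [key, det_submatrix_equiv_self]

end matrices

section main

variable {d : Type*} [Fintype d] [DecidableEq d] {γ ν : ℝ}

open Crest.Agent.Lib.GAD (gadLp gadLm gadP gadTh KeyAt tw)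

/-- The main case of the key inequality. -/
theorem keyAt_main (hγ0 : 0 < γ) (hγ1 : γ < 1) (hν0 : 0 ≤ ν) (hν1 : ν ≤ 1)
    {ρ : Matrix (Bool × d) (Bool × d) ℂ} (hρ : IsDensity ρ)
    (hq0 : 0 < tw ρ true) (hq1 : tw ρ true < 1) : KeyAt γ ν ρ := by
  set q := tw ρ true with hq
  have hγ : γ ∈ Set.Icc (0 : ℝ) 1 := ⟨hγ0.le, hγ1.le⟩
  have hν : ν ∈ Set.Icc (0 : ℝ) 1 := ⟨hν0, hν1⟩
  have h2 := twoPiece_gad hγ0 hγ1 hν0 hν1 hq0 hq1
  obtain ⟨R, hR, hRR⟩ := exists_sqrt hρ.1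
  have eρ : ρ = R * R := hRR.symm
  have hAA : rowB R false * (rowB R false)ᴴ = block ρ false false := by rw [rowB_mul R hR, hRR]
  have hCC : rowB R true * (rowB R true)ᴴ = block ρ true true := by rw [rowB_mul R hR, hRR]
  have hTrq : (block ρ true true).trace.re = q := rfl
  have hTrp : (block ρ false false).trace.re = 1 - q := by
    have := Crest.Agent.Lib.GAD.tw_add hρ
    have e : tw ρ false = (block ρ false false).trace.re := rfl
    linarith
  set M := qubitTensor (gadMap γ ν) (id : Matrix d d ℂ → Matrix d d ℂ) ρ with hMdef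
  have hM : M.PosSemidef := Crest.Agent.Lib.GAD.qubitTensor_id_posSemidef hγ hν hρ.1
  have hTrM : M.trace.re = 1 := by
    have h1 := Crest.Agent.Lib.GAD.trace_ptraceL (M)
    rw [hMdef, Crest.Agent.Lib.GAD.ptraceL_qubitTensor] at h1
    simp only [id, Matrix.trace_add] at h1
    have h3 := Crest.Agent.Lib.GAD.trace_eq_sum_block ρ
    rw [hρ.2] at h3
    rw [hMdef, ← h1, ← h3]
    simp
  have hcard : Fintype.card (Bool × d) = 2 * Fintype.card d := by
    simp
  have hdet : ∀ t : ℝ, 0 < t → (M + (t : ℂ) • (1 : Matrix (Bool × d) (Bool × d) ℂ)).det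
      = (Mtm (rowB R false) (rowB R true) (1 - γ * ν) (γ * (1 - ν)) (γ * ν) (1 - γ + γ * ν)
        (Real.sqrt (aNull (gadLp γ ν q) (gadLm γ ν q) (gadTh γ ν q) (1 - q))
          * Real.sqrt (aNull (gadLp γ ν q) (gadLm γ ν q) (1 - gadTh γ ν q) q)) t).det := by
    intro t _
    rw [sqrt_mul_gad hγ0 hγ1 hν0 hν1 hq0 hq1, hMdef]
    conv_lhs => rw [eρ]
    exact det_M_add R hR t
  have hA : (rowB R false * (rowB R false)ᴴ).IsHermitian := isHermitian_mul_conjTranspose_self _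
  have hC : (rowB R true * (rowB R true)ᴴ).IsHermitian := isHermitian_mul_conjTranspose_self _
  have hm := master h2 (by ring) (by ring) (rowB R false) (rowB R true)
    (by rw [hAA]; exact hTrp) (by rw [hCC]; exact hTrq) hM hTrM hcard hdet hA hC hM.isHermitian
  unfold KeyAt
  rw [← hMdef]
  rw [hTrq, ← hAA, ← hCC, Crest.Agent.Lib.GAD.vnEntropy_eq hA, Crest.Agent.Lib.GAD.vnEntropy_eq hC,
    Crest.Agent.Lib.GAD.vnEntropy_eq hM.isHermitian]
  have hbin : Real.binEntropy q = Real.negMulLog q + Real.negMulLog (1 - q) :=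
    Real.binEntropy_eq_negMulLog_add_negMulLog_one_sub q
  have hG : gadG γ ν q = Real.negMulLog (gadLp γ ν q) + Real.negMulLog (gadLm γ ν q) := by
    unfold gadG
    rw [Real.binEntropy_eq_negMulLog_add_negMulLog_one_sub]
    have : 1 - (1 + Real.sqrt (1 - 4 * gadV γ ν q)) / 2 = gadLm γ ν q := by
      unfold gadLm
      ring
    rw [this]
    rfl
  rw [hbin, hG]
  linarith

end main

/-- **The key inequality.** -/
theorem gadKey : GadKey := by
  intro γ ν hγ hν d _ _ ρ hρ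
  change Crest.Agent.Lib.GAD.KeyAt γ ν ρ
  rcases hγ.1.eq_or_lt with h0 | hγ0
  · rw [← h0]
    exact Crest.Agent.Lib.GAD.keyAt_gamma_zero hρ
  rcases hγ.2.eq_or_lt with h1 | hγ1
  · rw [h1]
    exact Crest.Agent.Lib.GAD.keyAt_gamma_one hν hρ
  have htw := Crest.Agent.Lib.GAD.tw_mem hρ true
  rcases htw.1.eq_or_lt with hq | hq0
  · exact Crest.Agent.Lib.GAD.keyAt_p_zero hγ hν hρ hq.symm
  rcases htw.2.eq_or_lt with hq | hq1
  · exact Crest.Agent.Lib.GAD.keyAt_p_one hγ hν hρ hq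
  exact keyAt_main hγ0 hγ1 hν.1 hν.2 hρ hq0 hq1

end Crest.Agent.GAD
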