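import Crest.Agent.Lib.GADKey.Count
import Crest.Agent.Lib.GADKey.Integral

/-!
Layer decomposition for one piece: pointwise in `t`, and integrated over `t`.
-/

set_option autoImplicit false

namespace Crest.Agent.GAD

open Matrix MeasureTheory Filter Topology
open scoped ComplexOrder

variable {d K : Type*} [Fintype d] [DecidableEq d] [Fintype K] [DecidableEq K]

lemma Y_herm {A C : Matrix d d ℂ} (hA : A.IsHermitian) (hC : C.IsHermitian) (c be : ℝ) :
    ((c : ℂ) • A - (be : ℂ) • C).IsHermitian := by
  apply IsHermitian.sub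
  · unfold IsHermitian
    rw [conjTranspose_smul, hA.eq]
    simp
  · unfold IsHermitian
    rw [conjTranspose_smul, hC.eq]
    simp

section
variable {lp lm θ B pt al : ℝ}

/-- The partition nodes. -/
noncomputable def node (δ : ℝ) (k : ℕ) : ℝ := ((k : ℝ) + 1) * δ

lemma node_pos {δ : ℝ} (hδ : 0 < δ) (k : ℕ) : 0 < node δ k := by
  unfold node
  positivity

lemma node_succ_ge {δ : ℝ} (hδ : 0 < δ) (k : ℕ) : node δ k ≤ node δ (k + 1) := by
  unfold node
  push_cast
  nlinarith

/-- Pointwise layer bound for a piece. -/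
theorem piece_layers (h : Piece lp lm θ B pt al) (a : Matrix d K ℂ) {C : Matrix d d ℂ}
    (hC : C.PosSemidef) {be t δ : ℝ} (hbe : 0 ≤ be) (ht : 0 < t) (hδ : 0 < δ)
    (hA : (a * aᴴ).IsHermitian) (hCh : C.IsHermitian)
    (hP : (Pm a (Em (a * aᴴ) C (aPlus lp lm θ pt al) be t)).IsHermitian) (K' : ℕ) :
    ∑ k ∈ Finset.range K', (phi lp lm θ B (node δ k) - phi lp lm θ B (node δ (k + 1)))
        * cnt (fun j => (Y_herm hA hCh ((node δ k + B) / pt) be).eigenvalues j) t
      ≤ ∑ i, Ipc lp lm θ pt al (hP.eigenvalues i) := by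
  classical
  have hB := h.B_nn
  have hpt := h.pt_pos
  have hlp := lp_pos h
  have happos := aPlus_pos h
  have hPpsd : (Pm a (Em (a * aᴴ) C (aPlus lp lm θ pt al) be t)).PosSemidef :=
    Pm_psd a (Em_posDef (posSemidef_self_mul_conjTranspose a) hC happos.le hbe ht)
  have hπ0 : ∀ i, 0 ≤ hP.eigenvalues i := fun i => hPpsd.eigenvalues_nonneg i
  have hπ1 : ∀ i, aPlus lp lm θ pt al * hP.eigenvalues i < 1 :=
    fun i => eig_lt a hC happos.le hbe ht hP i
  have hw : ∀ k, 0 ≤ phi lp lm θ B (node δ k) - phi lp lm θ B (node δ (k + 1)) := by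
    intro k
    have := phi_anti h (node_pos hδ k).le (by linarith [node_pos hδ k]) (node_succ_ge hδ k)
    linarith
  -- step 1: replace the count by the count of eigenvalues of `P`
  have h1 : ∀ k, cnt (fun j => (Y_herm hA hCh ((node δ k + B) / pt) be).eigenvalues j) t
      ≤ ∑ i, (if pt / (lp + node δ k) < hP.eigenvalues i then (1 : ℝ) else 0) := by
    intro k
    rw [cnt_eq_card, Finset.sum_boole]
    have hr := node_pos hδ k
    have hlr : 0 < lp + node δ k := by linarith
    have hc : (node δ k + B) / pt + aPlus lp lm θ pt al = 1 / (pt / (lp + node δ k)) := by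
      have e := aPlus_mul_pt h
      have : aPlus lp lm θ pt al = (lp - B) / pt := by
        rw [← e]
        field_simp
      rw [this]
      field_simp
      ring
    have := count_piece a hC (ap := aPlus lp lm θ pt al) (be := be) (t := t)
      (c₁ := (node δ k + B) / pt) (ξ := pt / (lp + node δ k)) happos.le hbe ht (div_pos hpt hlr) hc
      (Y_herm hA hCh ((node δ k + B) / pt) be) hP
    exact_mod_cast this
  calc _ ≤ ∑ k ∈ Finset.range K', (phi lp lm θ B (node δ k) - phi lp lm θ B (node δ (k + 1)))
        * ∑ i, (if pt / (lp + node δ k) < hP.eigenvalues i then (1 : ℝ) else 0) :=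
        Finset.sum_le_sum (fun k _ => mul_le_mul_of_nonneg_left (h1 k) (hw k))
    _ = ∑ i, ∑ k ∈ Finset.range K', (phi lp lm θ B (node δ k) - phi lp lm θ B (node δ (k + 1)))
        * (if pt / (lp + node δ k) < hP.eigenvalues i then (1 : ℝ) else 0) := by
        rw [Finset.sum_comm]
        exact Finset.sum_congr rfl (fun k _ => Finset.mul_sum _ _ _)
    _ ≤ _ := by
        apply Finset.sum_le_sum
        intro i _
        apply partition_bound (Ipc lp lm θ pt al (hP.eigenvalues i)) (fun k => phi lp lm θ B (node δ k))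
          (fun k => pt / (lp + node δ k) < hP.eigenvalues i)
        · intro k
          exact phi_anti h (node_pos hδ k).le (by linarith [node_pos hδ k]) (node_succ_ge hδ k)
        · exact Ipc_nonneg h (hπ0 i) (hπ1 i)
        · intro k
          exact phi_nonneg h (node_pos hδ k).le (by linarith [node_pos hδ k])
        · intro k hk
          exact Ipc_ge_phi h (hπ0 i) (hπ1 i) (node_pos hδ k) hk

/-- The integrated count for a piece. -/
theorem piece_integral {A C : Matrix d d ℂ} (hApsd : A.PosSemidef) (hC : C.PosSemidef)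
    (hA : A.IsHermitian) (hCh : C.IsHermitian) {pt qt be r T : ℝ}
    (hpt : 0 < pt) (hbe : 0 ≤ be) (hqt0 : 0 ≤ qt) (hqt1 : qt ≤ 1) (hr : 0 < r) (hT : 0 ≤ T)
    (hTrA : A.trace.re = pt) (hTrC : C.trace.re = qt) :
    ∑ l, min (r * (hA.eigenvalues l / pt)) T - (if T < r + be then (Fintype.card d : ℝ) * be else 0)
      ≤ ∫ t in (0 : ℝ)..T, cnt (fun j => (Y_herm hA hCh ((r + be * qt) / pt) be).eigenvalues j) t := by
  classical
  have hB : 0 ≤ be * qt := mul_nonneg hbe hqt0
  have hsum : ∑ l, hA.eigenvalues l = pt := by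
    have h1 := hA.trace_eq_sum_eigenvalues
    have h2 := congrArg Complex.re h1
    rw [hTrA, Complex.re_sum] at h2
    simpa using h2.symm
  have hs_nn : ∀ l, 0 ≤ hA.eigenvalues l / pt := fun l => div_nonneg (hApsd.eigenvalues_nonneg l) hpt.le
  have hsum2 : ∑ l, r * (hA.eigenvalues l / pt) = r := by
    rw [← Finset.mul_sum, ← Finset.sum_div, hsum]
    field_simp
  by_cases hcase : T < r + be
  · rw [if_pos hcase]
    -- comparison with the family `r s - be`
    have hcomp : ∫ t in (0 : ℝ)..T, cnt (fun l => (r / pt) * hA.eigenvalues l - be) t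
        ≤ ∫ t in (0 : ℝ)..T, cnt (fun j => (Y_herm hA hCh ((r + be * qt) / pt) be).eigenvalues j) t := by
      apply intervalIntegral.integral_mono_on_of_le_Ioo hT (cnt_integrable _ _ _) (cnt_integrable _ _ _)
      intro t _
      rw [cnt_eq_card, cnt_eq_card]
      have hr1 : r / pt ≤ (r + be * qt) / pt := div_le_div_of_nonneg_right (by linarith) hpt.le
      have := count_b hA hApsd hC (t := t) hr1 hbe (by rw [hTrC]; exact hqt1)
        (Y_herm hA hCh ((r + be * qt) / pt) be)
      exact_mod_cast this
    refine le_trans ?_ hcomp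
    rw [cnt_integral _ hT]
    have : (Fintype.card d : ℝ) * be = ∑ _l : d, be := by
      simp
    rw [this, ← Finset.sum_sub_distrib]
    apply Finset.sum_le_sum
    intro l _
    have e : r / pt * hA.eigenvalues l = r * (hA.eigenvalues l / pt) := by ring
    rw [e]
    set x := r * (hA.eigenvalues l / pt)
    have hx : min x T - be ≤ x - be := by linarith [min_le_left x T]
    have hT2 : min x T - be ≤ T := by linarith [min_le_right x T]
    have h0 : min x T - be ≤ max (x - be) 0 := hx.trans (le_max_left _ _)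
    exact le_min h0 hT2
  · rw [if_neg hcase]
    have hcase' : r + be ≤ T := not_lt.mp hcase
    rw [cnt_integral _ hT, sub_zero]
    -- each eigenvalue of `Y` is at most `T`
    have hYle : ∀ j, (Y_herm hA hCh ((r + be * qt) / pt) be).eigenvalues j ≤ T := by
      intro j
      have h1 := eig_Y_le hApsd hC (c₁ := (r + be * qt) / pt) (be := be)
        (div_nonneg (by linarith) hpt.le) hbe (Y_herm hA hCh ((r + be * qt) / pt) be) j
      rw [hTrA] at h1
      have h2 : (r + be * qt) / pt * pt = r + be * qt := by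
        field_simp
      rw [h2] at h1
      have h3 : be * qt ≤ be * 1 := mul_le_mul_of_nonneg_left hqt1 hbe
      linarith
    have hsumY : ∑ j, (Y_herm hA hCh ((r + be * qt) / pt) be).eigenvalues j = r := by
      rw [sum_eig_Y, hTrA, hTrC]
      field_simp
      ring
    calc ∑ l, min (r * (hA.eigenvalues l / pt)) T
        ≤ ∑ l, r * (hA.eigenvalues l / pt) := Finset.sum_le_sum (fun l _ => min_le_left _ _)
      _ = ∑ j, (Y_herm hA hCh ((r + be * qt) / pt) be).eigenvalues j := by rw [hsum2, hsumY]
      _ ≤ _ := by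
        apply Finset.sum_le_sum
        intro j _
        exact le_min (le_max_left _ _) (hYle j)

/-- Lower bound for the layer sum against a clipped linear function, for a finite family. -/
theorem LS_lower (h : Piece lp lm θ B pt al) {ι : Type*} [Fintype ι] (s : ι → ℝ) (hs : ∀ l, 0 ≤ s l)
    {δ T : ℝ} (hδ : 0 < δ) (hT : 0 ≤ T) (K' : ℕ) :
    ∑ l, (s l * PHI lp lm θ B δ (min ((K' : ℝ) * δ * s l) T / s l)
        - phi lp lm θ B (((K' : ℝ) + 1) * δ) * min ((K' : ℝ) * δ * s l) T)
      ≤ ∑ k ∈ Finset.range K', (phi lp lm θ B (node δ k) - phi lp lm θ B (node δ (k + 1)))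
          * ∑ l, min (node δ k * s l) T := by
  have e : ∑ k ∈ Finset.range K', (phi lp lm θ B (node δ k) - phi lp lm θ B (node δ (k + 1)))
          * ∑ l, min (node δ k * s l) T
      = ∑ l, ∑ k ∈ Finset.range K', (phi lp lm θ B (node δ k) - phi lp lm θ B (node δ (k + 1)))
          * min (node δ k * s l) T := by
    rw [Finset.sum_comm]
    exact Finset.sum_congr rfl (fun k _ => Finset.mul_sum _ _ _)
  rw [e]
  apply Finset.sum_le_sum
  intro l _
  rcases (hs l).eq_or_lt with h0 | hpos
  · rw [← h0]
    have hz : min (0 : ℝ) T = 0 := min_eq_left hT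
    simp [hz]
  · have := abel_layers h hδ hpos hT K'
    unfold node
    push_cast
    have e2 : ∀ k : ℕ, ((k : ℝ) + 1 + 1) = ((k : ℝ) + 1 + 1) := fun _ => rfl
    linarith

/-- The limit as `K → ∞` of the lower bound in `LS_lower`. -/
theorem LS_tendsto {ι : Type*} [Fintype ι] (s : ι → ℝ) (hs : ∀ l, 0 ≤ s l)
    (lp lm θ B : ℝ) {δ T : ℝ} (hδ : 0 < δ) (hT : 0 ≤ T) :
    Tendsto (fun K' : ℕ => ∑ l, (s l * PHI lp lm θ B δ (min ((K' : ℝ) * δ * s l) T / s l)
        - phi lp lm θ B (((K' : ℝ) + 1) * δ) * min ((K' : ℝ) * δ * s l) T))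
      atTop (𝓝 (∑ l, s l * PHI lp lm θ B δ (T / s l))) := by
  apply tendsto_finsetSum
  intro l _
  rcases (hs l).eq_or_lt with h0 | hpos
  · rw [← h0]
    have hz : min (0 : ℝ) T = 0 := min_eq_left hT
    simp [hz]
  · -- eventually the minimum is `T`
    have h1 : Tendsto (fun K' : ℕ => ((K' : ℝ) + 1) * δ) atTop atTop := by
      apply Tendsto.atTop_mul_const hδ
      exact tendsto_atTop_add_const_right _ _ tendsto_natCast_atTop_atTop
    have h2 := (phi_tendsto lp lm θ B).comp h1
    have h3 : Tendsto (fun K' : ℕ => (K' : ℝ) * δ * s l) atTop atTop := by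
      apply Tendsto.atTop_mul_const hpos
      exact Tendsto.atTop_mul_const hδ tendsto_natCast_atTop_atTop
    have hev : ∀ᶠ K' : ℕ in atTop, min ((K' : ℝ) * δ * s l) T = T := by
      filter_upwards [h3.eventually_ge_atTop T] with K' hK'
      exact min_eq_right hK'
    have h4 : Tendsto (fun K' : ℕ => s l * PHI lp lm θ B δ (T / s l)
        - phi lp lm θ B (((K' : ℝ) + 1) * δ) * T) atTop (𝓝 (s l * PHI lp lm θ B δ (T / s l) - 0 * T)) :=
      tendsto_const_nhds.sub (h2.mul_const T)
    rw [zero_mul, sub_zero] at h4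
    refine h4.congr' ?_
    filter_upwards [hev] with K' hK'
    rw [hK']

/-- Continuity of the antiderivative in the shift. -/
lemma PHI_continuous_shift (lp lm θ B R : ℝ) : Continuous (fun δ => PHI lp lm θ B δ R) := by
  have hf := Real.continuous_mul_log
  have hJ : ∀ x : ℝ, Continuous (fun δ : ℝ => Jb (x + δ) R) := by
    intro x
    unfold Jb
    have h1 : Continuous (fun δ : ℝ => (x + δ + R) * Real.log (x + δ + R)) :=
      hf.comp (by fun_prop : Continuous (fun δ : ℝ => x + δ + R))
    have h2 : Continuous (fun δ : ℝ => (x + δ) * Real.log (x + δ)) :=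
      hf.comp (by fun_prop : Continuous (fun δ : ℝ => x + δ))
    exact (h1.sub h2).sub continuous_const
  unfold PHI
  exact ((continuous_const.mul (hJ lp)).add (continuous_const.mul (hJ lm))).sub (hJ B)

end

end Crest.Agent.GAD
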