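import Crest.Agent.Lib.GADKey.Spec

/-!
Determinant facts: real determinant of Hermitian matrices, monotonicity, log-concavity,
and the ratio monotonicity used in the Young-type inequality.
-/

set_option autoImplicit false

namespace Crest.Agent.GAD

open Matrix
open scoped ComplexOrder

variable {n : Type*} [Fintype n] [DecidableEq n]

lemma det_eq_ofReal_re {Z : Matrix n n ℂ} (h : Z.IsHermitian) : Z.det = ((Z.det.re : ℝ) : ℂ) := by
  have h1 := det_hf h (fun x => x)
  rw [hf_id] at h1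
  rw [h1, Complex.ofReal_re]

lemma det_re_pos {Z : Matrix n n ℂ} (h : Z.PosDef) : 0 < Z.det.re := by
  have := h.det_pos
  have h2 := det_eq_ofReal_re h.isHermitian
  rw [h2] at this
  exact_mod_cast this

lemma re_det_mul {A B : Matrix n n ℂ} (hA : A.IsHermitian) (hB : B.IsHermitian) :
    (A * B).det.re = A.det.re * B.det.re := by
  rw [det_mul, det_eq_ofReal_re hA, det_eq_ofReal_re hB]
  simp

/-- Square-root factorisation of a positive definite matrix. -/
lemma exists_factor {X : Matrix n n ℂ} (hX : X.PosDef) :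
    ∃ R Ri : Matrix n n ℂ, R.IsHermitian ∧ Ri.IsHermitian ∧ R * R = X ∧ R * Ri = 1 ∧ Ri * R = 1 := by
  have hH := hX.isHermitian
  have hpos : ∀ i, 0 < hH.eigenvalues i := fun i => hX.eigenvalues_pos i
  refine ⟨hf hH Real.sqrt, hf hH (fun x => (Real.sqrt x)⁻¹), isHermitian_hf hH _, isHermitian_hf hH _, ?_, ?_, ?_⟩
  · rw [hf_mul]
    have : hf hH (fun x => Real.sqrt x * Real.sqrt x) = hf hH (fun x => x) :=
      hf_congr hH (fun i => Real.mul_self_sqrt (hpos i).le)
    rw [this, hf_id]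
  · exact hf_inv hH (fun i => (Real.sqrt_pos.mpr (hpos i)).ne')
  · rw [hf_mul]
    have : hf hH (fun x => (Real.sqrt x)⁻¹ * Real.sqrt x) = hf hH (fun _ => 1) :=
      hf_congr hH (fun i => inv_mul_cancel₀ (Real.sqrt_pos.mpr (hpos i)).ne')
    rw [this, hf_const]
    simp

/-- Square root of a positive semidefinite matrix. -/
lemma exists_sqrt {E : Matrix n n ℂ} (hE : E.PosSemidef) :
    ∃ F : Matrix n n ℂ, F.IsHermitian ∧ F * F = E := by
  have hH := hE.isHermitian
  have hpos : ∀ i, 0 ≤ hH.eigenvalues i := fun i => hE.eigenvalues_nonneg i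
  refine ⟨hf hH Real.sqrt, isHermitian_hf hH _, ?_⟩
  rw [hf_mul]
  have : hf hH (fun x => Real.sqrt x * Real.sqrt x) = hf hH (fun x => x) :=
    hf_congr hH (fun i => Real.mul_self_sqrt (hpos i))
  rw [this, hf_id]

/-- `det (1 + G) ≥ 1` for positive semidefinite `G`. -/
lemma one_le_det_one_add {G : Matrix n n ℂ} (hG : G.PosSemidef) : 1 ≤ (1 + G).det.re := by
  have hH := hG.isHermitian
  have h1 : 1 + G = hf hH (fun x => 1 * x + 1) := by
    rw [hf_affine]
    simp [add_comm]
  rw [h1, det_hf_re]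
  calc (1 : ℝ) = ∏ _i : n, (1 : ℝ) := by simp
    _ ≤ _ := by
      apply Finset.prod_le_prod (fun _ _ => zero_le_one)
      intro i _
      have := hG.eigenvalues_nonneg i
      linarith

/-- Loewner monotonicity of the determinant. -/
theorem det_mono {X D : Matrix n n ℂ} (hX : X.PosDef) (hD : D.PosSemidef) :
    X.det.re ≤ (X + D).det.re := by
  obtain ⟨R, Ri, hR, hRi, hRR, hRRi, hRiR⟩ := exists_factor hX
  have hG : (Ri * D * Ri).PosSemidef := by
    have := hD.conjTranspose_mul_mul_same Ri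
    rwa [hRi.eq] at this
  have hfac : X + D = R * (1 + Ri * D * Ri) * R := by
    have : R * (1 + Ri * D * Ri) * R = R * R + (R * Ri) * D * (Ri * R) := by
      simp only [Matrix.mul_add, Matrix.add_mul, Matrix.mul_one, Matrix.mul_assoc]
    rw [this, hRR, hRRi, hRiR]
    simp
  have h1 : (X + D).det = X.det * (1 + Ri * D * Ri).det := by
    rw [hfac, det_mul, det_mul, ← hRR, det_mul]
    ring
  rw [h1, det_eq_ofReal_re hX.isHermitian]
  rw [Complex.re_ofReal_mul]
  have h2 := one_le_det_one_add hG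
  have h3 := det_re_pos hX
  simp only [Complex.ofReal_re]
  nlinarith

/-- Log-concavity of the determinant. -/
theorem logdet_concave {T₁ T₂ : Matrix n n ℂ} (h₁ : T₁.PosDef) (h₂ : T₂.PosDef) {θ : ℝ}
    (h0 : 0 < θ) (h1 : θ < 1) :
    θ * Real.log T₁.det.re + (1 - θ) * Real.log T₂.det.re
      ≤ Real.log ((θ : ℂ) • T₁ + ((1 - θ : ℝ) : ℂ) • T₂).det.re := by
  obtain ⟨R, Ri, hR, hRi, hRR, hRRi, hRiR⟩ := exists_factor h₁
  have hZ : (Ri * T₂ * Ri).PosDef := by
    have hinj : Function.Injective (fun v => v ᵥ* Ri) := by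
      intro x y hxy
      have := congrArg (fun v => v ᵥ* R) hxy
      simpa [vecMul_vecMul, hRiR] using this
    have := h₂.mul_mul_conjTranspose_same hinj
    rwa [hRi.eq] at this
  set Z := Ri * T₂ * Ri with hZdef
  have hH := hZ.isHermitian
  have hT₂ : T₂ = R * Z * R := by
    rw [hZdef]
    have : R * (Ri * T₂ * Ri) * R = (R * Ri) * T₂ * (Ri * R) := by
      simp only [Matrix.mul_assoc]
    rw [this, hRRi, hRiR]
    simp
  have hdetR : R.det * R.det = T₁.det := by
    rw [← hRR, det_mul]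
  have hdet₂ : T₂.det = T₁.det * Z.det := by
    rw [hT₂, det_mul, det_mul, ← hdetR]
    ring
  have hdet₂re : T₂.det.re = T₁.det.re * Z.det.re := by
    rw [hdet₂, det_eq_ofReal_re h₁.isHermitian, Complex.re_ofReal_mul, Complex.ofReal_re]
  have hcomb : (θ : ℂ) • T₁ + ((1 - θ : ℝ) : ℂ) • T₂ = R * hf hH (fun x => (1 - θ) * x + θ) * R := by
    rw [hf_affine, hT₂, ← hRR]
    simp only [Matrix.mul_add, Matrix.add_mul, Matrix.mul_smul, Matrix.smul_mul, Matrix.mul_one]
    rw [add_comm]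
  have hdet3 : ((θ : ℂ) • T₁ + ((1 - θ : ℝ) : ℂ) • T₂).det = T₁.det * (hf hH (fun x => (1 - θ) * x + θ)).det := by
    rw [hcomb, det_mul, det_mul, ← hdetR]
    ring
  have hdet3re : ((θ : ℂ) • T₁ + ((1 - θ : ℝ) : ℂ) • T₂).det.re
      = T₁.det.re * ∏ i, ((1 - θ) * hH.eigenvalues i + θ) := by
    rw [hdet3, det_eq_ofReal_re h₁.isHermitian, Complex.re_ofReal_mul, Complex.ofReal_re, det_hf_re]
  have hzpos : ∀ i, 0 < hH.eigenvalues i := fun i => hZ.eigenvalues_pos i
  have hT₁pos := det_re_pos h₁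
  have hZpos := det_re_pos hZ
  have hZprod : Z.det.re = ∏ i, hH.eigenvalues i := by
    have := det_hf_re hH (fun x => x)
    rwa [hf_id] at this
  have hpos2 : ∀ i, 0 < (1 - θ) * hH.eigenvalues i + θ := fun i => by
    have := hzpos i
    have : 0 < 1 - θ := by linarith
    positivity
  rw [hdet3re, hdet₂re, Real.log_mul hT₁pos.ne' hZpos.ne', Real.log_mul hT₁pos.ne'
    (Finset.prod_pos (fun i _ => hpos2 i)).ne', hZprod, Real.log_prod (fun i _ => (hzpos i).ne'),
    Real.log_prod (fun i _ => (hpos2 i).ne')]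
  have hsum : (1 - θ) * ∑ i, Real.log (hH.eigenvalues i) ≤ ∑ i, Real.log ((1 - θ) * hH.eigenvalues i + θ) := by
    rw [Finset.mul_sum]
    apply Finset.sum_le_sum
    intro i _
    have := strictConcaveOn_log_Ioi.concaveOn.2 (Set.mem_Ioi.mpr (hzpos i)) (Set.mem_Ioi.mpr one_pos)
      (show (0 : ℝ) ≤ 1 - θ by linarith) h0.le (by ring)
    simpa using this
  have : θ * Real.log T₁.det.re + (1 - θ) * (Real.log T₁.det.re + ∑ i, Real.log (hH.eigenvalues i))
      = Real.log T₁.det.re + (1 - θ) * ∑ i, Real.log (hH.eigenvalues i) := by ring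
  rw [this]
  linarith

/-- Ratio monotonicity of determinants along commuting functions of `X`. -/
theorem det_ratio_mono {X : Matrix n n ℂ} (hX : X.IsHermitian) {f g : ℝ → ℝ}
    (hf0 : ∀ i, 0 < f (hX.eigenvalues i)) (hfg : ∀ i, f (hX.eigenvalues i) ≤ g (hX.eigenvalues i))
    {E : Matrix n n ℂ} (hE : E.PosSemidef) :
    (hf hX g + E).det.re * (hf hX f).det.re ≤ (hf hX f + E).det.re * (hf hX g).det.re := by
  obtain ⟨F, hF, hFF⟩ := exists_sqrt hE
  have hg0 : ∀ i, 0 < g (hX.eigenvalues i) := fun i => lt_of_lt_of_le (hf0 i) (hfg i)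
  -- reduction to `1 + F Z⁻¹ F`
  have key : ∀ h : ℝ → ℝ, (∀ i, 0 < h (hX.eigenvalues i)) →
      (hf hX h + E).det = (hf hX h).det * (1 + F * hf hX (fun x => (h x)⁻¹) * F).det := by
    intro h hh
    have h1 : hf hX h + E = hf hX h * (1 + hf hX (fun x => (h x)⁻¹) * F * F) := by
      rw [Matrix.mul_add, Matrix.mul_one, ← Matrix.mul_assoc, ← Matrix.mul_assoc,
        hf_inv hX (fun i => (hh i).ne'), Matrix.one_mul, hFF]
    rw [h1, det_mul]
    congr 1
    have h2 := Matrix.det_one_add_mul_comm (hf hX (fun x => (h x)⁻¹) * F) F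
    rw [h2, Matrix.mul_assoc]
  have hW' : (1 + F * hf hX (fun x => (g x)⁻¹) * F).PosDef := by
    apply PosDef.add_posSemidef PosDef.one
    have h0 : (hf hX (fun x => (g x)⁻¹)).PosSemidef :=
      posSemidef_hf hX (fun i => (inv_pos.mpr (hg0 i)).le)
    have := h0.conjTranspose_mul_mul_same F
    rwa [hF.eq] at this
  have hdiff : (F * hf hX (fun x => (f x)⁻¹ - (g x)⁻¹) * F).PosSemidef := by
    have h0 : (hf hX (fun x => (f x)⁻¹ - (g x)⁻¹)).PosSemidef := by
      apply posSemidef_hf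
      intro i
      have := inv_anti₀ (hf0 i) (hfg i)
      linarith
    have := h0.conjTranspose_mul_mul_same F
    rwa [hF.eq] at this
  have hle := det_mono hW' hdiff
  have hrw : 1 + F * hf hX (fun x => (g x)⁻¹) * F + F * hf hX (fun x => (f x)⁻¹ - (g x)⁻¹) * F
      = 1 + F * hf hX (fun x => (f x)⁻¹) * F := by
    rw [hf_sub]
    simp only [Matrix.mul_sub, Matrix.sub_mul]
    abel
  rw [hrw] at hle
  have hZ : (hf hX f).PosDef := posDef_hf hX hf0
  have hZ' : (hf hX g).PosDef := posDef_hf hX hg0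
  rw [key f hf0, key g hg0]
  rw [det_eq_ofReal_re hZ.isHermitian, det_eq_ofReal_re hZ'.isHermitian, Complex.re_ofReal_mul,
    Complex.re_ofReal_mul]
  simp only [Complex.ofReal_re]
  have p1 := det_re_pos hZ
  have p2 := det_re_pos hZ'
  have : 0 ≤ (hf hX g).det.re * (hf hX f).det.re := by positivity
  nlinarith [mul_le_mul_of_nonneg_left hle this]

end Crest.Agent.GAD
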