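import Crest.Agent.Lib.GADKey.Pointwise
import Crest.Agent.Lib.GADKey.Layer

/-!
The master inequality: integrating the layer bound over `t ∈ (0, T)`, refining the partition and
letting `T → ∞`.
-/

set_option autoImplicit false

namespace Crest.Agent.GAD

open Matrix MeasureTheory Filter Topology
open scoped ComplexOrder

variable {d K : Type*} [Fintype d] [DecidableEq d] [Fintype K] [DecidableEq K]

lemma ii_sum {ι : Type*} (s : Finset ι) (f : ι → ℝ → ℝ) {a b : ℝ}
    (h : ∀ i ∈ s, IntervalIntegrable (f i) volume a b) :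
    IntervalIntegrable (fun t => ∑ i ∈ s, f i t) volume a b := by
  have e : (fun t => ∑ i ∈ s, f i t) = ∑ i ∈ s, f i := by
    ext t
    simp [Finset.sum_apply]
  rw [e]
  exact IntervalIntegrable.sum s h

section
variable {lp lm θ q α β α' β' : ℝ}

/-- Integrated inequality, at a fixed `T`, partition independent. -/
theorem integrated (h : TwoPiece lp lm θ q α β α' β') (a b : Matrix d K ℂ)
    (hTrA : (a * aᴴ).trace.re = 1 - q) (hTrC : (b * bᴴ).trace.re = q)
    {ι : Type*} [Fintype ι] [DecidableEq ι] {M : Matrix ι ι ℂ} (hM : M.PosSemidef)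
    (hdet : ∀ t : ℝ, 0 < t → (M + (t : ℂ) • (1 : Matrix ι ι ℂ)).det
      = (Mtm a b α β α' β' (Real.sqrt (aNull lp lm θ (1 - q)) * Real.sqrt (aNull lp lm (1 - θ) q)) t).det)
    (hA : (a * aᴴ).IsHermitian) (hC : (b * bᴴ).IsHermitian) (hMh : M.IsHermitian)
    {T : ℝ} (hT₁ : β < T) (hT₂ : α' < T) :
    ∑ l, (hA.eigenvalues l / (1 - q)) * PHI lp lm θ (β * q) 0 (T / (hA.eigenvalues l / (1 - q)))
      + ∑ l, (hC.eigenvalues l / q) * PHI lp lm (1 - θ) (α' * (1 - q)) 0 (T / (hC.eigenvalues l / q))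
    ≤ ∑ μ, Jb (hMh.eigenvalues μ) T - ∑ j, Jb (β * hC.eigenvalues j) T - ∑ i, Jb (α' * hA.eigenvalues i) T
      + (Fintype.card d : ℝ) * β * phi lp lm θ (β * q) (T - β)
      + (Fintype.card d : ℝ) * α' * phi lp lm (1 - θ) (α' * (1 - q)) (T - α') := by
  classical
  have h₁ := h.h₁
  have h₂ := h.h₂
  have hβ := h.hβ
  have hα' := h.hα'
  have hq1 : 0 < 1 - q := h₁.pt_pos
  have hq0 : 0 < q := h₂.pt_pos
  have hT0 : 0 < T := lt_of_le_of_lt hβ hT₁
  have hApsd : (a * aᴴ).PosSemidef := posSemidef_self_mul_conjTranspose a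
  have hCpsd : (b * bᴴ).PosSemidef := posSemidef_self_mul_conjTranspose b
  have hμ0 : ∀ μ, 0 ≤ hMh.eigenvalues μ := fun μ => hM.eigenvalues_nonneg μ
  have hc0 : ∀ j, 0 ≤ hC.eigenvalues j := fun j => hCpsd.eigenvalues_nonneg j
  have ha0 : ∀ i, 0 ≤ hA.eigenvalues i := fun i => hApsd.eigenvalues_nonneg i
  -- the right-hand side expressed as a `log`-integral
  set L : ℝ → ℝ := fun t => ∑ μ, Real.log (hMh.eigenvalues μ + t)
      - ∑ j, Real.log (β * hC.eigenvalues j + t) - ∑ i, Real.log (α' * hA.eigenvalues i + t) with hL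
  have hLint : IntervalIntegrable L volume 0 T := by
    apply IntervalIntegrable.sub
    · apply IntervalIntegrable.sub
      · exact ii_sum _ _ (fun μ _ => log_add_integrable T)
      · exact ii_sum _ _ (fun μ _ => log_add_integrable T)
    · exact ii_sum _ _ (fun μ _ => log_add_integrable T)
  have hLval : ∫ t in (0 : ℝ)..T, L t
      = ∑ μ, Jb (hMh.eigenvalues μ) T - ∑ j, Jb (β * hC.eigenvalues j) T - ∑ i, Jb (α' * hA.eigenvalues i) T := by
    rw [hL, intervalIntegral.integral_sub, intervalIntegral.integral_sub, intervalIntegral.integral_finsetSum,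
      intervalIntegral.integral_finsetSum, intervalIntegral.integral_finsetSum]
    · simp only [log_add_integral]
    · exact fun μ _ => log_add_integrable T
    · exact fun μ _ => log_add_integrable T
    · exact fun μ _ => log_add_integrable T
    · exact ii_sum _ _ (fun μ _ => log_add_integrable T)
    · exact ii_sum _ _ (fun μ _ => log_add_integrable T)
    · exact (ii_sum _ _ (fun μ _ => log_add_integrable T)).sub
        (ii_sum _ _ (fun μ _ => log_add_integrable T))
    · exact ii_sum _ _ (fun μ _ => log_add_integrable T)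
  rw [← hLval]
  -- fix `δ` and `K'`
  have hfix : ∀ δ : ℝ, 0 < δ → ∀ K' : ℕ,
      ∑ k ∈ Finset.range K', (phi lp lm θ (β * q) (node δ k) - phi lp lm θ (β * q) (node δ (k + 1)))
          * ∑ l, min (node δ k * (hA.eigenvalues l / (1 - q))) T
      + ∑ k ∈ Finset.range K', (phi lp lm (1 - θ) (α' * (1 - q)) (node δ k) - phi lp lm (1 - θ) (α' * (1 - q)) (node δ (k + 1)))
          * ∑ l, min (node δ k * (hC.eigenvalues l / q)) T
      ≤ (∫ t in (0 : ℝ)..T, L t) + (Fintype.card d : ℝ) * β * phi lp lm θ (β * q) (T - β)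
        + (Fintype.card d : ℝ) * α' * phi lp lm (1 - θ) (α' * (1 - q)) (T - α') := by
    intro δ hδ K'
    set w₁ : ℕ → ℝ := fun k => phi lp lm θ (β * q) (node δ k) - phi lp lm θ (β * q) (node δ (k + 1)) with hw₁
    set w₂ : ℕ → ℝ := fun k => phi lp lm (1 - θ) (α' * (1 - q)) (node δ k) - phi lp lm (1 - θ) (α' * (1 - q)) (node δ (k + 1)) with hw₂
    have hw₁0 : ∀ k, 0 ≤ w₁ k := by
      intro k
      have := phi_anti h₁ (node_pos hδ k).le (by linarith [node_pos hδ k, h₁.B_nn]) (node_succ_ge hδ k)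
      simp only [hw₁]
      linarith
    have hw₂0 : ∀ k, 0 ≤ w₂ k := by
      intro k
      have := phi_anti h₂ (node_pos hδ k).le (by linarith [node_pos hδ k, h₂.B_nn]) (node_succ_ge hδ k)
      simp only [hw₂]
      linarith
    set cn₁ : ℕ → ℝ → ℝ := fun k => cnt (fun j => (Y_herm hA hC ((node δ k + β * q) / (1 - q)) β).eigenvalues j) with hcn₁
    set cn₂ : ℕ → ℝ → ℝ := fun k => cnt (fun j => (Y_herm hC hA ((node δ k + α' * (1 - q)) / q) α').eigenvalues j) with hcn₂
    -- pointwise inequality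
    have hpt : ∀ t ∈ Set.Ioo (0 : ℝ) T,
        ∑ k ∈ Finset.range K', w₁ k * cn₁ k t + ∑ k ∈ Finset.range K', w₂ k * cn₂ k t ≤ L t := by
      intro t ht
      have ht0 : 0 < t := ht.1
      have hE₁ := Em_posDef hApsd hCpsd (aPlus_pos h₁).le hβ ht0
      have hE₂ := Em_posDef hCpsd hApsd (aPlus_pos h₂).le hα' ht0
      have hP := (Pm_psd a hE₁).isHermitian
      have hQ := (Pm_psd b hE₂).isHermitian
      have l₁ := piece_layers h₁ a hCpsd hβ ht0 hδ hA hC hP K'
      have l₂ := piece_layers h₂ b hApsd hα' ht0 hδ hC hA hQ K'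
      have hp := pointwise h a b ht0 hP hQ hA hC
      rw [← hdet t ht0] at hp
      have hlog : Real.log (M + (t : ℂ) • (1 : Matrix ι ι ℂ)).det.re = ∑ μ, Real.log (hMh.eigenvalues μ + t) := by
        have e : M + (t : ℂ) • (1 : Matrix ι ι ℂ) = hf hMh (fun x => 1 * x + t) := by
          rw [hf_affine]
          simp
        rw [e, log_det_hf]
        · simp
        · intro μ
          have := hμ0 μ
          linarith
      rw [hlog] at hp
      simp only [hL]
      linarith
    have hint1 : IntervalIntegrable (fun t => ∑ k ∈ Finset.range K', w₁ k * cn₁ k t) volume 0 T :=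
      ii_sum _ _ (fun k _ => (cnt_integrable _ _ _).const_mul _)
    have hint2 : IntervalIntegrable (fun t => ∑ k ∈ Finset.range K', w₂ k * cn₂ k t) volume 0 T :=
      ii_sum _ _ (fun k _ => (cnt_integrable _ _ _).const_mul _)
    have hmono := intervalIntegral.integral_mono_on_of_le_Ioo hT0.le (hint1.add hint2) hLint hpt
    have hval : ∫ t in (0 : ℝ)..T, (∑ k ∈ Finset.range K', w₁ k * cn₁ k t + ∑ k ∈ Finset.range K', w₂ k * cn₂ k t)
        = ∑ k ∈ Finset.range K', w₁ k * (∫ t in (0 : ℝ)..T, cn₁ k t)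
          + ∑ k ∈ Finset.range K', w₂ k * (∫ t in (0 : ℝ)..T, cn₂ k t) := by
      rw [intervalIntegral.integral_add hint1 hint2, intervalIntegral.integral_finsetSum, intervalIntegral.integral_finsetSum]
      · simp only [intervalIntegral.integral_const_mul]
      · exact fun k _ => (cnt_integrable _ _ _).const_mul _
      · exact fun k _ => (cnt_integrable _ _ _).const_mul _
    have hval' : ∫ t in (0 : ℝ)..T, (∑ k ∈ Finset.range K', w₁ k * cn₁ k t + ∑ k ∈ Finset.range K', w₂ k * cn₂ k t)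
        = ∑ k ∈ Finset.range K', w₁ k * (∫ t in (0 : ℝ)..T, cn₁ k t)
          + ∑ k ∈ Finset.range K', w₂ k * (∫ t in (0 : ℝ)..T, cn₂ k t) := hval
    rw [hval'] at hmono
    -- bound each integrated count
    have hI₁ : ∀ k, ∑ l, min (node δ k * (hA.eigenvalues l / (1 - q))) T
        - (if T < node δ k + β then (Fintype.card d : ℝ) * β else 0) ≤ ∫ t in (0 : ℝ)..T, cn₁ k t := by
      intro k
      exact piece_integral hApsd hCpsd hA hC hq1 hβ hq0.le (by linarith) (node_pos hδ k) hT0.le hTrA hTrC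
    have hI₂ : ∀ k, ∑ l, min (node δ k * (hC.eigenvalues l / q)) T
        - (if T < node δ k + α' then (Fintype.card d : ℝ) * α' else 0) ≤ ∫ t in (0 : ℝ)..T, cn₂ k t := by
      intro k
      exact piece_integral hCpsd hApsd hC hA hq0 hα' hq1.le (by linarith) (node_pos hδ k) hT0.le hTrC hTrA
    -- the error terms
    have hdnn : (0 : ℝ) ≤ (Fintype.card d : ℝ) := Nat.cast_nonneg _
    have hE₁ : ∑ k ∈ Finset.range K', w₁ k * (if T < node δ k + β then (Fintype.card d : ℝ) * β else 0)
        ≤ (Fintype.card d : ℝ) * β * phi lp lm θ (β * q) (T - β) := by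
      have hb := partition_bound (phi lp lm θ (β * q) (T - β)) (fun k => phi lp lm θ (β * q) (node δ k))
        (fun k => T < node δ k + β)
        (fun k => phi_anti h₁ (node_pos hδ k).le (by linarith [node_pos hδ k, h₁.B_nn]) (node_succ_ge hδ k))
        (phi_nonneg h₁ (by linarith) (by linarith [h₁.B_nn]))
        (fun k => phi_nonneg h₁ (node_pos hδ k).le (by linarith [node_pos hδ k, h₁.B_nn]))
        (fun k hk => phi_anti h₁ (by linarith) (by linarith [h₁.B_nn]) (by linarith)) K'
      have := mul_le_mul_of_nonneg_left hb (mul_nonneg hdnn hβ)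
      refine le_trans (le_of_eq ?_) this
      rw [Finset.mul_sum]
      apply Finset.sum_congr rfl
      intro k _
      simp only [hw₁]
      split_ifs <;> ring
    have hE₂ : ∑ k ∈ Finset.range K', w₂ k * (if T < node δ k + α' then (Fintype.card d : ℝ) * α' else 0)
        ≤ (Fintype.card d : ℝ) * α' * phi lp lm (1 - θ) (α' * (1 - q)) (T - α') := by
      have hb := partition_bound (phi lp lm (1 - θ) (α' * (1 - q)) (T - α')) (fun k => phi lp lm (1 - θ) (α' * (1 - q)) (node δ k))
        (fun k => T < node δ k + α')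
        (fun k => phi_anti h₂ (node_pos hδ k).le (by linarith [node_pos hδ k, h₂.B_nn]) (node_succ_ge hδ k))
        (phi_nonneg h₂ (by linarith) (by linarith [h₂.B_nn]))
        (fun k => phi_nonneg h₂ (node_pos hδ k).le (by linarith [node_pos hδ k, h₂.B_nn]))
        (fun k hk => phi_anti h₂ (by linarith) (by linarith [h₂.B_nn]) (by linarith)) K'
      have := mul_le_mul_of_nonneg_left hb (mul_nonneg hdnn hα')
      refine le_trans (le_of_eq ?_) this
      rw [Finset.mul_sum]
      apply Finset.sum_congr rfl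
      intro k _
      simp only [hw₂]
      split_ifs <;> ring
    have hS₁ : ∑ k ∈ Finset.range K', w₁ k * ∑ l, min (node δ k * (hA.eigenvalues l / (1 - q))) T
        - ∑ k ∈ Finset.range K', w₁ k * (if T < node δ k + β then (Fintype.card d : ℝ) * β else 0)
        ≤ ∑ k ∈ Finset.range K', w₁ k * (∫ t in (0 : ℝ)..T, cn₁ k t) := by
      rw [← Finset.sum_sub_distrib]
      apply Finset.sum_le_sum
      intro k _
      rw [← mul_sub]
      exact mul_le_mul_of_nonneg_left (hI₁ k) (hw₁0 k)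
    have hS₂ : ∑ k ∈ Finset.range K', w₂ k * ∑ l, min (node δ k * (hC.eigenvalues l / q)) T
        - ∑ k ∈ Finset.range K', w₂ k * (if T < node δ k + α' then (Fintype.card d : ℝ) * α' else 0)
        ≤ ∑ k ∈ Finset.range K', w₂ k * (∫ t in (0 : ℝ)..T, cn₂ k t) := by
      rw [← Finset.sum_sub_distrib]
      apply Finset.sum_le_sum
      intro k _
      rw [← mul_sub]
      exact mul_le_mul_of_nonneg_left (hI₂ k) (hw₂0 k)
    linarith
  -- refine the partition
  have hs₁ : ∀ l, 0 ≤ hA.eigenvalues l / (1 - q) := fun l => div_nonneg (ha0 l) hq1.le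
  have hs₂ : ∀ l, 0 ≤ hC.eigenvalues l / q := fun l => div_nonneg (hc0 l) hq0.le
  have hδlim : ∀ δ : ℝ, 0 < δ →
      ∑ l, (hA.eigenvalues l / (1 - q)) * PHI lp lm θ (β * q) δ (T / (hA.eigenvalues l / (1 - q)))
      + ∑ l, (hC.eigenvalues l / q) * PHI lp lm (1 - θ) (α' * (1 - q)) δ (T / (hC.eigenvalues l / q))
      ≤ (∫ t in (0 : ℝ)..T, L t) + (Fintype.card d : ℝ) * β * phi lp lm θ (β * q) (T - β)
        + (Fintype.card d : ℝ) * α' * phi lp lm (1 - θ) (α' * (1 - q)) (T - α') := by
    intro δ hδ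
    have t₁ := LS_tendsto (fun l => hA.eigenvalues l / (1 - q)) hs₁ lp lm θ (β * q) hδ hT0.le
    have t₂ := LS_tendsto (fun l => hC.eigenvalues l / q) hs₂ lp lm (1 - θ) (α' * (1 - q)) hδ hT0.le
    apply le_of_tendsto (t₁.add t₂)
    apply Eventually.of_forall
    intro K'
    have b₁ := LS_lower h₁ (fun l => hA.eigenvalues l / (1 - q)) hs₁ hδ hT0.le K'
    have b₂ := LS_lower h₂ (fun l => hC.eigenvalues l / q) hs₂ hδ hT0.le K'
    have := hfix δ hδ K'
    linarith
  -- let `δ → 0`
  have hcont : Tendsto (fun δ : ℝ =>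
      ∑ l, (hA.eigenvalues l / (1 - q)) * PHI lp lm θ (β * q) δ (T / (hA.eigenvalues l / (1 - q)))
      + ∑ l, (hC.eigenvalues l / q) * PHI lp lm (1 - θ) (α' * (1 - q)) δ (T / (hC.eigenvalues l / q)))
      (𝓝[>] 0)
      (𝓝 (∑ l, (hA.eigenvalues l / (1 - q)) * PHI lp lm θ (β * q) 0 (T / (hA.eigenvalues l / (1 - q)))
      + ∑ l, (hC.eigenvalues l / q) * PHI lp lm (1 - θ) (α' * (1 - q)) 0 (T / (hC.eigenvalues l / q)))) := by
    apply Tendsto.mono_left _ nhdsWithin_le_nhds
    apply Continuous.tendsto'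
    · apply Continuous.add
      · exact continuous_finsetSum _ (fun l _ => continuous_const.mul (PHI_continuous_shift _ _ _ _ _))
      · exact continuous_finsetSum _ (fun l _ => continuous_const.mul (PHI_continuous_shift _ _ _ _ _))
    · rfl
  apply le_of_tendsto hcont
  filter_upwards [self_mem_nhdsWithin] with δ hδ
  exact hδlim δ hδ

/-- Scaling of entropy sums. -/
lemma sum_negMulLog_scale {ι : Type*} [Fintype ι] (c : ℝ) (x : ι → ℝ) :
    ∑ j, Real.negMulLog (c * x j) = c * ∑ j, Real.negMulLog (x j) + (∑ j, x j) * Real.negMulLog c := by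
  rw [Finset.mul_sum, Finset.sum_mul, ← Finset.sum_add_distrib]
  apply Finset.sum_congr rfl
  intro j _
  rw [Real.negMulLog_mul]
  ring

lemma sum_negMulLog_div {ι : Type*} [Fintype ι] {c : ℝ} (hc : c ≠ 0) (x : ι → ℝ) (hsum : ∑ j, x j = c) :
    c * ∑ j, Real.negMulLog (x j / c) = ∑ j, Real.negMulLog (x j) - Real.negMulLog c := by
  have h := sum_negMulLog_scale c (fun j => x j / c)
  have e : ∀ j, c * (x j / c) = x j := fun j => by field_simp
  simp only [e] at h
  have h2 : ∑ j, x j / c = 1 := by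
    rw [← Finset.sum_div, hsum]
    field_simp
  rw [h2, one_mul] at h
  linarith

lemma sum_eig {n : Type*} [Fintype n] [DecidableEq n] {X : Matrix n n ℂ} (hX : X.IsHermitian) :
    ∑ i, hX.eigenvalues i = X.trace.re := by
  have h1 := hX.trace_eq_sum_eigenvalues
  have h2 := congrArg Complex.re h1
  rw [h2, Complex.re_sum]
  simp

/-- The master inequality. -/
theorem master (h : TwoPiece lp lm θ q α β α' β') (hαα' : α + α' = 1) (hββ' : β + β' = 1)
    (a b : Matrix d K ℂ)
    (hTrA : (a * aᴴ).trace.re = 1 - q) (hTrC : (b * bᴴ).trace.re = q)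
    {ι : Type*} [Fintype ι] [DecidableEq ι] {M : Matrix ι ι ℂ} (hM : M.PosSemidef)
    (hTrM : M.trace.re = 1) (hcard : Fintype.card ι = 2 * Fintype.card d)
    (hdet : ∀ t : ℝ, 0 < t → (M + (t : ℂ) • (1 : Matrix ι ι ℂ)).det
      = (Mtm a b α β α' β' (Real.sqrt (aNull lp lm θ (1 - q)) * Real.sqrt (aNull lp lm (1 - θ) q)) t).det)
    (hA : (a * aᴴ).IsHermitian) (hC : (b * bᴴ).IsHermitian) (hMh : M.IsHermitian) :
    ∑ i, Real.negMulLog (hA.eigenvalues i) + ∑ j, Real.negMulLog (hC.eigenvalues j)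
        + Real.negMulLog lp + Real.negMulLog lm - Real.negMulLog q - Real.negMulLog (1 - q)
      ≤ ∑ μ, Real.negMulLog (hMh.eigenvalues μ) := by
  classical
  have h₁ := h.h₁
  have h₂ := h.h₂
  have hβ := h.hβ
  have hα' := h.hα'
  have hq1 : 0 < 1 - q := h₁.pt_pos
  have hq0 : 0 < q := h₂.pt_pos
  have hApsd : (a * aᴴ).PosSemidef := posSemidef_self_mul_conjTranspose a
  have hCpsd : (b * bᴴ).PosSemidef := posSemidef_self_mul_conjTranspose b
  have ha0 : ∀ i, 0 ≤ hA.eigenvalues i := fun i => hApsd.eigenvalues_nonneg i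
  have hc0 : ∀ j, 0 ≤ hC.eigenvalues j := fun j => hCpsd.eigenvalues_nonneg j
  -- traces as sums of eigenvalues
  have sA : ∑ i, hA.eigenvalues i = 1 - q := by rw [sum_eig hA, hTrA]
  have sC : ∑ j, hC.eigenvalues j = q := by rw [sum_eig hC, hTrC]
  have sM : ∑ μ, hMh.eigenvalues μ = 1 := by rw [sum_eig hMh, hTrM]
  have sA' : ∑ l, hA.eigenvalues l / (1 - q) = 1 := by
    rw [← Finset.sum_div, sA]
    field_simp
  have sC' : ∑ l, hC.eigenvalues l / q = 1 := by
    rw [← Finset.sum_div, sC]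
    field_simp
  set w₁ := (1 - θ) * lp + θ * lm - β * q with hw₁
  set w₂ := (1 - (1 - θ)) * lp + (1 - θ) * lm - α' * (1 - q) with hw₂
  have hw₁e : w₁ = α * (1 - q) := by rw [h₁.w_eq]
  have hw₂e : w₂ = β' * q := by rw [h₂.w_eq]
  set Λ₁ := w₁ + (1 - θ) * Real.negMulLog lp + θ * Real.negMulLog lm - Real.negMulLog (β * q) with hΛ₁
  set Λ₂ := w₂ + (1 - (1 - θ)) * Real.negMulLog lp + (1 - θ) * Real.negMulLog lm
    - Real.negMulLog (α' * (1 - q)) with hΛ₂
  -- the limit of the right side (integrated lower bound)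
  have tG : Tendsto (fun T =>
      (∑ l, (hA.eigenvalues l / (1 - q)) * PHI lp lm θ (β * q) 0 (T / (hA.eigenvalues l / (1 - q)))
      + ∑ l, (hC.eigenvalues l / q) * PHI lp lm (1 - θ) (α' * (1 - q)) 0 (T / (hC.eigenvalues l / q)))
      - (w₁ + w₂) * Real.log T) atTop
      (𝓝 (∑ l, ((hA.eigenvalues l / (1 - q)) * Λ₁ + w₁ * Real.negMulLog (hA.eigenvalues l / (1 - q)))
        + ∑ l, ((hC.eigenvalues l / q) * Λ₂ + w₂ * Real.negMulLog (hC.eigenvalues l / q)))) := by
    have t₁ := tendsto_finsetSum (Finset.univ : Finset d) (fun l _ =>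
      sPHI_asymp lp lm θ (β * q) (div_nonneg (ha0 l) hq1.le))
    have t₂ := tendsto_finsetSum (Finset.univ : Finset d) (fun l _ =>
      sPHI_asymp lp lm (1 - θ) (α' * (1 - q)) (div_nonneg (hc0 l) hq0.le))
    refine (t₁.add t₂).congr ?_
    intro T
    rw [Finset.sum_sub_distrib, Finset.sum_sub_distrib, ← Finset.sum_mul, ← Finset.sum_mul, sA', sC']
    ring
  -- the limit of the left side
  have tF : Tendsto (fun T =>
      (∑ μ, Jb (hMh.eigenvalues μ) T - ∑ j, Jb (β * hC.eigenvalues j) T - ∑ i, Jb (α' * hA.eigenvalues i) T)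
      - (w₁ + w₂) * Real.log T) atTop
      (𝓝 (∑ μ, (hMh.eigenvalues μ + Real.negMulLog (hMh.eigenvalues μ))
        - ∑ j, (β * hC.eigenvalues j + Real.negMulLog (β * hC.eigenvalues j))
        - ∑ i, (α' * hA.eigenvalues i + Real.negMulLog (α' * hA.eigenvalues i)))) := by
    have t₁ := tendsto_finsetSum (Finset.univ : Finset ι) (fun μ _ => Jb_asymp (hMh.eigenvalues μ))
    have t₂ := tendsto_finsetSum (Finset.univ : Finset d) (fun j _ => Jb_asymp (β * hC.eigenvalues j))
    have t₃ := tendsto_finsetSum (Finset.univ : Finset d) (fun i _ => Jb_asymp (α' * hA.eigenvalues i))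
    refine ((t₁.sub t₂).sub t₃).congr ?_
    intro T
    simp only [Finset.sum_sub_distrib, Finset.sum_add_distrib, Finset.sum_const, Finset.card_univ,
      nsmul_eq_mul, ← Finset.sum_mul, ← Finset.mul_sum, sM, sC, sA, hcard]
    push_cast
    have e12 : w₁ + w₂ = 1 - β * q - α' * (1 - q) := by
      rw [hw₁e, hw₂e]
      have : α = 1 - α' := by linarith
      have : β' = 1 - β := by linarith
      subst_vars
      ring
    rw [e12]
    ring
  -- the limit of the error
  have terr : Tendsto (fun T : ℝ => (Fintype.card d : ℝ) * β * phi lp lm θ (β * q) (T - β)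
      + (Fintype.card d : ℝ) * α' * phi lp lm (1 - θ) (α' * (1 - q)) (T - α')) atTop (𝓝 0) := by
    have e₁ : Tendsto (fun T : ℝ => T - β) atTop atTop := tendsto_atTop_add_const_right _ _ tendsto_id
    have e₂ : Tendsto (fun T : ℝ => T - α') atTop atTop := tendsto_atTop_add_const_right _ _ tendsto_id
    have t₁ := ((phi_tendsto lp lm θ (β * q)).comp e₁).const_mul ((Fintype.card d : ℝ) * β)
    have t₂ := ((phi_tendsto lp lm (1 - θ) (α' * (1 - q))).comp e₂).const_mul ((Fintype.card d : ℝ) * α')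
    have := t₁.add t₂
    simpa using this
  -- pass to the limit
  have hlim := le_of_tendsto_of_tendsto tG (tF.add terr) (by
    filter_upwards [eventually_gt_atTop β, eventually_gt_atTop α'] with T hT₁ hT₂
    have := integrated h a b hTrA hTrC hM hdet hA hC hMh hT₁ hT₂
    linarith)
  -- algebra
  rw [add_zero] at hlim
  have a1 : ∑ l, ((hA.eigenvalues l / (1 - q)) * Λ₁ + w₁ * Real.negMulLog (hA.eigenvalues l / (1 - q)))
      = Λ₁ + α * (∑ i, Real.negMulLog (hA.eigenvalues i) - Real.negMulLog (1 - q)) := by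
    rw [Finset.sum_add_distrib, ← Finset.sum_mul, sA', one_mul, ← Finset.mul_sum, hw₁e, mul_assoc,
      sum_negMulLog_div hq1.ne' _ sA]
  have a2 : ∑ l, ((hC.eigenvalues l / q) * Λ₂ + w₂ * Real.negMulLog (hC.eigenvalues l / q))
      = Λ₂ + β' * (∑ j, Real.negMulLog (hC.eigenvalues j) - Real.negMulLog q) := by
    rw [Finset.sum_add_distrib, ← Finset.sum_mul, sC', one_mul, ← Finset.mul_sum, hw₂e, mul_assoc,
      sum_negMulLog_div hq0.ne' _ sC]
  have a3 : ∑ μ, (hMh.eigenvalues μ + Real.negMulLog (hMh.eigenvalues μ))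
      = 1 + ∑ μ, Real.negMulLog (hMh.eigenvalues μ) := by
    rw [Finset.sum_add_distrib, sM]
  have a4 : ∑ j, (β * hC.eigenvalues j + Real.negMulLog (β * hC.eigenvalues j))
      = β * q + (β * ∑ j, Real.negMulLog (hC.eigenvalues j) + q * Real.negMulLog β) := by
    rw [Finset.sum_add_distrib, ← Finset.mul_sum, sC, sum_negMulLog_scale, sC]
  have a5 : ∑ i, (α' * hA.eigenvalues i + Real.negMulLog (α' * hA.eigenvalues i))
      = α' * (1 - q) + (α' * ∑ i, Real.negMulLog (hA.eigenvalues i) + (1 - q) * Real.negMulLog α') := by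
    rw [Finset.sum_add_distrib, ← Finset.mul_sum, sA, sum_negMulLog_scale, sA]
  rw [a1, a2, a3, a4, a5] at hlim
  have b1 : Real.negMulLog (β * q) = q * Real.negMulLog β + β * Real.negMulLog q := Real.negMulLog_mul _ _
  have b2 : Real.negMulLog (α' * (1 - q)) = (1 - q) * Real.negMulLog α' + α' * Real.negMulLog (1 - q) :=
    Real.negMulLog_mul _ _
  have e12 : w₁ + w₂ = 1 - β * q - α' * (1 - q) := by
    rw [hw₁e, hw₂e]
    have : α = 1 - α' := by linarith
    have : β' = 1 - β := by linarith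
    subst_vars
    ring
  have hα1 : α = 1 - α' := by linarith
  have hβ1 : β' = 1 - β := by linarith
  rw [hΛ₁, hΛ₂, b1, b2] at hlim
  have e13 : w₁ = 1 - β * q - α' * (1 - q) - w₂ := by linarith
  rw [hα1, hβ1] at hlim
  rw [e13] at hlim
  nlinarith

end

end Crest.Agent.GAD
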