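import Crest.Agent.Lib.GADKey.Block

/-!
The pointwise (in `t`) lower bound of the log-determinant difference by eigenvalue sums of the two
resolvent matrices.
-/

set_option autoImplicit false

namespace Crest.Agent.GAD

open Matrix
open scoped ComplexOrder

variable {d K : Type*} [Fintype d] [DecidableEq d] [Fintype K] [DecidableEq K]

/-- The scalars of both pieces. -/
structure TwoPiece (lp lm θ q α β α' β' : ℝ) : Prop where
  h₁ : Piece lp lm θ (β * q) (1 - q) α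
  h₂ : Piece lp lm (1 - θ) (α' * (1 - q)) q β'
  hκ : aNull lp lm θ (1 - q) * aNull lp lm (1 - θ) q ≤ α * β'
  hβ : 0 ≤ β
  hα' : 0 ≤ α'

/-- The matrix `M + t` on `d ⊕ d`. -/
noncomputable def Mtm (a b : Matrix d K ℂ) (α β α' β' κ t : ℝ) : Matrix (d ⊕ d) (d ⊕ d) ℂ :=
  fromBlocks ((α : ℂ) • (a * aᴴ) + (β : ℂ) • (b * bᴴ) + (t : ℂ) • 1) ((κ : ℂ) • (a * bᴴ))
    ((κ : ℂ) • (b * aᴴ)) ((α' : ℂ) • (a * aᴴ) + (β' : ℂ) • (b * bᴴ) + (t : ℂ) • 1)

lemma Mtm_eq (a b : Matrix d K ℂ) (α β α' β' a₀ b₀ t : ℝ) (ha₀ : 0 ≤ a₀) (hb₀ : 0 ≤ b₀) :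
    fromBlocks (Em (a * aᴴ) (b * bᴴ) (α + a₀) β t) 0 0 (Em (b * bᴴ) (a * aᴴ) (β' + b₀) α' t)
      - (fromRows ((Real.sqrt a₀ : ℂ) • a) (((-Real.sqrt b₀ : ℝ) : ℂ) • b))
        * (fromRows ((Real.sqrt a₀ : ℂ) • a) (((-Real.sqrt b₀ : ℝ) : ℂ) • b))ᴴ
      = Mtm a b α β α' β' (Real.sqrt a₀ * Real.sqrt b₀) t := by
  rw [conjTranspose_fromRows_eq_fromCols_conjTranspose, fromRows_mul_fromCols]
  unfold Mtm Em
  rw [sub_eq_add_neg, fromBlocks_neg, fromBlocks_add]
  congr 1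
  · simp only [conjTranspose_smul, Matrix.smul_mul, Matrix.mul_smul, Complex.star_def,
      Complex.conj_ofReal, smul_smul]
    have e1 : ((Real.sqrt a₀ : ℂ) * (Real.sqrt a₀ : ℂ)) = (a₀ : ℂ) := by
      rw [← Complex.ofReal_mul, Real.mul_self_sqrt ha₀]
    rw [e1]
    push_cast
    rw [add_smul]
    abel
  · simp only [conjTranspose_smul, Matrix.smul_mul, Matrix.mul_smul, Complex.star_def,
      Complex.conj_ofReal, smul_smul]
    push_cast
    rw [zero_add, ← neg_smul]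
    congr 1
    ring
  · simp only [conjTranspose_smul, Matrix.smul_mul, Matrix.mul_smul, Complex.star_def,
      Complex.conj_ofReal, smul_smul]
    push_cast
    rw [zero_add, ← neg_smul]
    congr 1
    ring
  · simp only [conjTranspose_smul, Matrix.smul_mul, Matrix.mul_smul, Complex.star_def,
      Complex.conj_ofReal, smul_smul]
    have e1 : (((-Real.sqrt b₀ : ℝ) : ℂ) * ((-Real.sqrt b₀ : ℝ) : ℂ)) = (b₀ : ℂ) := by
      rw [← Complex.ofReal_mul, neg_mul_neg, Real.mul_self_sqrt hb₀]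
    rw [e1]
    push_cast
    rw [add_smul]
    abel

section
variable {lp lm θ q α β α' β' : ℝ}

theorem pointwise (h : TwoPiece lp lm θ q α β α' β') (a b : Matrix d K ℂ) {t : ℝ} (ht : 0 < t)
    (hP : (Pm a (Em (a * aᴴ) (b * bᴴ) (aPlus lp lm θ (1 - q) α) β t)).IsHermitian)
    (hQ : (Pm b (Em (b * bᴴ) (a * aᴴ) (aPlus lp lm (1 - θ) q β') α' t)).IsHermitian)
    (hA : (a * aᴴ).IsHermitian) (hC : (b * bᴴ).IsHermitian) :
    ∑ i, Ipc lp lm θ (1 - q) α (hP.eigenvalues i) + ∑ j, Ipc lp lm (1 - θ) q β' (hQ.eigenvalues j)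
      ≤ Real.log (Mtm a b α β α' β' (Real.sqrt (aNull lp lm θ (1 - q)) * Real.sqrt (aNull lp lm (1 - θ) q)) t).det.re
        - ∑ j, Real.log (β * hC.eigenvalues j + t) - ∑ i, Real.log (α' * hA.eigenvalues i + t) := by
  have h₁ := h.h₁
  have h₂ := h.h₂
  have hβ := h.hβ
  have hα' := h.hα'
  set a₀ := aNull lp lm θ (1 - q) with ha₀
  set b₀ := aNull lp lm (1 - θ) q with hb₀
  set ap := aPlus lp lm θ (1 - q) α with hap
  set dp := aPlus lp lm (1 - θ) q β' with hdp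
  have a₀pos : 0 < a₀ := aNull_pos h₁
  have b₀pos : 0 < b₀ := aNull_pos h₂
  have appos : 0 < ap := aPlus_pos h₁
  have dppos : 0 < dp := aPlus_pos h₂
  have hApsd : (a * aᴴ).PosSemidef := posSemidef_self_mul_conjTranspose a
  have hCpsd : (b * bᴴ).PosSemidef := posSemidef_self_mul_conjTranspose b
  have hE₁ : (Em (a * aᴴ) (b * bᴴ) ap β t).PosDef := Em_posDef hApsd hCpsd appos.le hβ ht
  have hE₂ : (Em (b * bᴴ) (a * aᴴ) dp α' t).PosDef := Em_posDef hCpsd hApsd dppos.le hα' ht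
  set E₁ := Em (a * aᴴ) (b * bᴴ) ap β t with hE₁def
  set E₂ := Em (b * bᴴ) (a * aᴴ) dp α' t with hE₂def
  have hu₁ : IsUnit E₁.det := (isUnit_iff_isUnit_det E₁).mp hE₁.isUnit
  have hu₂ : IsUnit E₂.det := (isUnit_iff_isUnit_det E₂).mp hE₂.isUnit
  have hE₁pos := det_re_pos hE₁
  have hE₂pos := det_re_pos hE₂
  -- eigenvalue bounds
  have hπ : ∀ i, ap * hP.eigenvalues i < 1 := fun i => eig_lt a hCpsd appos.le hβ ht hP i
  have hρ : ∀ j, dp * hQ.eigenvalues j < 1 := fun j => eig_lt b hApsd dppos.le hα' ht hQ j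
  -- the determinant of `M + t`
  have hMt : (Mtm a b α β α' β' (Real.sqrt a₀ * Real.sqrt b₀) t).det
      = E₁.det * E₂.det * (1 - (a₀ : ℂ) • Pm a E₁ - (b₀ : ℂ) • Pm b E₂).det := by
    rw [← Mtm_eq a b α β α' β' a₀ b₀ t a₀pos.le b₀pos.le]
    have e₁ : Em (a * aᴴ) (b * bᴴ) (α + a₀) β t = E₁ := rfl
    have e₂ : Em (b * bᴴ) (a * aᴴ) (β' + b₀) α' t = E₂ := rfl
    rw [e₁, e₂, det_block a b E₁ E₂ hu₁ hu₂]
    congr 3
    · rw [Real.sq_sqrt a₀pos.le]
    · rw [neg_sq, Real.sq_sqrt b₀pos.le]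
  -- apply Young
  have hYu : ∀ i, α / ap < (fun x => (-a₀) * x + 1) (hP.eigenvalues i) := fun i => by
    have := u0_lt h₁ (hπ i)
    simp only [neg_mul]
    change α / ap < 1 - a₀ * _ at this
    linarith
  have hYv : ∀ j, β' / dp < (fun x => (-b₀) * x + 1) (hQ.eigenvalues j) := fun j => by
    have := u0_lt h₂ (hρ j)
    simp only [neg_mul]
    change β' / dp < 1 - b₀ * _ at this
    linarith
  have hY01 : 1 ≤ α / ap + β' / dp := by
    have hκ := h.hκ
    rw [← ha₀, ← hb₀] at hκ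
    have hα := h₁.al_pos
    have hβ' := h₂.al_pos
    have e : α / ap + β' / dp - 1 = (α * β' - a₀ * b₀) / (ap * dp) := by
      rw [hap, hdp]
      unfold aPlus
      rw [← ha₀, ← hb₀]
      field_simp
      ring
    have : 0 ≤ (α * β' - a₀ * b₀) / (ap * dp) := div_nonneg (by linarith) (by positivity)
    linarith
  have hY := young hP hQ (fun x => (-a₀) * x + 1) (fun x => (-b₀) * x + 1)
    (u₀ := α / ap) (v₀ := β' / dp) (θ := θ) (us := uStar lp lm θ) (vs := uStar lp lm (1 - θ))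
    hYu hYv hY01 h₁.θ_pos h₁.θ_lt (uStar_gt h₁)
    (by
      have := uStar_gt h₂
      linarith)
  have hYpd := young_posDef hP hQ (fun x => (-a₀) * x + 1) (fun x => (-b₀) * x + 1) hYu hYv hY01
  have hD0 : hf hP (fun x => (-a₀) * x + 1) + hf hQ (fun x => (-b₀) * x + 1) - 1
      = 1 - (a₀ : ℂ) • Pm a E₁ - (b₀ : ℂ) • Pm b E₂ := by
    rw [hf_affine, hf_affine]
    simp only [Complex.ofReal_neg, Complex.ofReal_one, one_smul, neg_smul]
    abel
  rw [hD0] at hY hYpd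
  -- the determinants of the two side matrices
  have hS₁ : Real.log ((β : ℂ) • (b * bᴴ) + (t : ℂ) • (1 : Matrix d d ℂ)).det.re
      = Real.log E₁.det.re + ∑ i, Real.log (1 - ap * hP.eigenvalues i) := by
    have e := det_piece a (b * bᴴ) ap β t hE₁
    have e2 : 1 - (ap : ℂ) • Pm a E₁ = hf hP (fun x => (-ap) * x + 1) := by
      rw [hf_affine]
      simp only [Complex.ofReal_neg, Complex.ofReal_one, one_smul, neg_smul]
      abel
    rw [e, e2, det_eq_ofReal_re hE₁.isHermitian, Complex.re_ofReal_mul, Complex.ofReal_re,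
      det_hf_re, Real.log_mul hE₁pos.ne', Real.log_prod]
    · congr 1
      apply Finset.sum_congr rfl
      intro i _
      ring_nf
    · intro i _
      have := hπ i
      nlinarith
    · apply Finset.prod_ne_zero_iff.mpr
      intro i _
      have := hπ i
      nlinarith
  have hS₂ : Real.log ((α' : ℂ) • (a * aᴴ) + (t : ℂ) • (1 : Matrix d d ℂ)).det.re
      = Real.log E₂.det.re + ∑ j, Real.log (1 - dp * hQ.eigenvalues j) := by
    have e := det_piece b (a * aᴴ) dp α' t hE₂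
    have e2 : 1 - (dp : ℂ) • Pm b E₂ = hf hQ (fun x => (-dp) * x + 1) := by
      rw [hf_affine]
      simp only [Complex.ofReal_neg, Complex.ofReal_one, one_smul, neg_smul]
      abel
    rw [e, e2, det_eq_ofReal_re hE₂.isHermitian, Complex.re_ofReal_mul, Complex.ofReal_re,
      det_hf_re, Real.log_mul hE₂pos.ne', Real.log_prod]
    · congr 1
      apply Finset.sum_congr rfl
      intro i _
      ring_nf
    · intro i _
      have := hρ i
      nlinarith
    · apply Finset.prod_ne_zero_iff.mpr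
      intro i _
      have := hρ i
      nlinarith
  have hS₁' : Real.log ((β : ℂ) • (b * bᴴ) + (t : ℂ) • (1 : Matrix d d ℂ)).det.re
      = ∑ j, Real.log (β * hC.eigenvalues j + t) := by
    have e : (β : ℂ) • (b * bᴴ) + (t : ℂ) • (1 : Matrix d d ℂ) = hf hC (fun x => β * x + t) := by
      rw [hf_affine]
    rw [e, log_det_hf]
    intro j
    have := hCpsd.eigenvalues_nonneg j
    have : 0 ≤ β * hC.eigenvalues j := mul_nonneg hβ this
    linarith
  have hS₂' : Real.log ((α' : ℂ) • (a * aᴴ) + (t : ℂ) • (1 : Matrix d d ℂ)).det.re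
      = ∑ i, Real.log (α' * hA.eigenvalues i + t) := by
    have e : (α' : ℂ) • (a * aᴴ) + (t : ℂ) • (1 : Matrix d d ℂ) = hf hA (fun x => α' * x + t) := by
      rw [hf_affine]
    rw [e, log_det_hf]
    intro j
    have := hApsd.eigenvalues_nonneg j
    have : 0 ≤ α' * hA.eigenvalues j := mul_nonneg hα' this
    linarith
  -- the log of the determinant of `M + t`
  have hD0pd : (1 - (a₀ : ℂ) • Pm a E₁ - (b₀ : ℂ) • Pm b E₂).PosDef := hYpd
  have hMt' : Real.log (Mtm a b α β α' β' (Real.sqrt a₀ * Real.sqrt b₀) t).det.re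
      = Real.log E₁.det.re + Real.log E₂.det.re
        + Real.log (1 - (a₀ : ℂ) • Pm a E₁ - (b₀ : ℂ) • Pm b E₂).det.re := by
    rw [hMt, det_eq_ofReal_re hE₁.isHermitian, det_eq_ofReal_re hE₂.isHermitian, ← Complex.ofReal_mul,
      Complex.re_ofReal_mul]
    simp only [Complex.ofReal_re]
    rw [Real.log_mul (mul_pos hE₁pos hE₂pos).ne' (det_re_pos hD0pd).ne', Real.log_mul hE₁pos.ne' hE₂pos.ne']
  rw [hMt', ← hS₁', ← hS₂', hS₁, hS₂]
  -- reassemble
  have hI₁ : ∑ i, Ipc lp lm θ (1 - q) α (hP.eigenvalues i)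
      = ∑ i, (Real.log ((-a₀) * hP.eigenvalues i + 1 - α / ap) - Real.log (max ((-a₀) * hP.eigenvalues i + 1) (uStar lp lm θ) - α / ap)
        + θ * Real.log ((max ((-a₀) * hP.eigenvalues i + 1) (uStar lp lm θ) - 1 + θ) / θ))
        - ∑ i, Real.log (1 - ap * hP.eigenvalues i) := by
    rw [← Finset.sum_sub_distrib]
    apply Finset.sum_congr rfl
    intro i _
    unfold Ipc
    rw [show (-a₀) * hP.eigenvalues i + 1 = 1 - a₀ * hP.eigenvalues i by ring]
  have hI₂ : ∑ j, Ipc lp lm (1 - θ) q β' (hQ.eigenvalues j)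
      = ∑ j, (Real.log ((-b₀) * hQ.eigenvalues j + 1 - β' / dp) - Real.log (max ((-b₀) * hQ.eigenvalues j + 1) (uStar lp lm (1 - θ)) - β' / dp)
        + (1 - θ) * Real.log ((max ((-b₀) * hQ.eigenvalues j + 1) (uStar lp lm (1 - θ)) - θ) / (1 - θ)))
        - ∑ j, Real.log (1 - dp * hQ.eigenvalues j) := by
    rw [← Finset.sum_sub_distrib]
    apply Finset.sum_congr rfl
    intro j _
    unfold Ipc
    rw [show (-b₀) * hQ.eigenvalues j + 1 = 1 - b₀ * hQ.eigenvalues j by ring]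
    rw [show max (1 - b₀ * hQ.eigenvalues j) (uStar lp lm (1 - θ)) - 1 + (1 - θ)
        = max (1 - b₀ * hQ.eigenvalues j) (uStar lp lm (1 - θ)) - θ by ring]
  rw [hI₁, hI₂]
  linarith

end

end Crest.Agent.GAD
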