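import Mathlib

/-!
Functional calculus along Mathlib's eigenbasis of a Hermitian matrix, with eigenvalue-indexed
determinants, quadratic forms, and the eigenvalue counting lemma.
-/

set_option autoImplicit false

namespace Crest.Agent.GAD

open Matrix
open scoped ComplexOrder

section hf

variable {n : Type*} [Fintype n] [DecidableEq n]

/-- Functional calculus: `f(X)` through Mathlib's eigenvector unitary. -/
noncomputable def hf {X : Matrix n n ℂ} (hX : X.IsHermitian) (f : ℝ → ℝ) : Matrix n n ℂ :=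
  (hX.eigenvectorUnitary : Matrix n n ℂ) * diagonal (fun i => ((f (hX.eigenvalues i) : ℝ) : ℂ)) *
    star (hX.eigenvectorUnitary : Matrix n n ℂ)

variable {X : Matrix n n ℂ} (hX : X.IsHermitian)

lemma U_star_mul : star (hX.eigenvectorUnitary : Matrix n n ℂ) * (hX.eigenvectorUnitary : Matrix n n ℂ) = 1 :=
  Unitary.coe_star_mul_self _

lemma U_mul_star : (hX.eigenvectorUnitary : Matrix n n ℂ) * star (hX.eigenvectorUnitary : Matrix n n ℂ) = 1 :=
  Unitary.coe_mul_star_self _

lemma hf_congr {f g : ℝ → ℝ} (h : ∀ i, f (hX.eigenvalues i) = g (hX.eigenvalues i)) :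
    hf hX f = hf hX g := by
  unfold hf
  congr 3
  ext i
  simp [h i]

lemma hf_id : hf hX (fun x => x) = X := by
  conv_rhs => rw [hX.spectral_theorem]
  simp only [hf, Unitary.conjStarAlgAut_apply]
  rfl

lemma hf_const (c : ℝ) : hf hX (fun _ => c) = (c : ℂ) • (1 : Matrix n n ℂ) := by
  unfold hf
  have : diagonal (fun _ : n => (c : ℂ)) = (c : ℂ) • (1 : Matrix n n ℂ) := by
    ext i j
    by_cases h : i = j <;> simp [h, diagonal]
  rw [this, Matrix.mul_smul, Matrix.smul_mul, mul_one, U_mul_star]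

lemma hf_add (f g : ℝ → ℝ) : hf hX (fun x => f x + g x) = hf hX f + hf hX g := by
  unfold hf
  rw [← add_mul, ← mul_add]
  congr 2
  ext i j
  by_cases h : i = j <;> simp [h, diagonal]

lemma hf_smul (c : ℝ) (f : ℝ → ℝ) : hf hX (fun x => c * f x) = (c : ℂ) • hf hX f := by
  unfold hf
  have : diagonal (fun i => (((c * f (hX.eigenvalues i) : ℝ)) : ℂ))
      = (c : ℂ) • diagonal (fun i => ((f (hX.eigenvalues i) : ℝ) : ℂ)) := by
    ext i j
    by_cases h : i = j <;> simp [h, diagonal]
  rw [this, Matrix.mul_smul, Matrix.smul_mul]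

lemma hf_sub (f g : ℝ → ℝ) : hf hX (fun x => f x - g x) = hf hX f - hf hX g := by
  have : (fun x => f x - g x) = fun x => f x + (-1) * g x := by ext x; ring
  rw [this, hf_add, hf_smul]
  simp [sub_eq_add_neg]

lemma hf_mul (f g : ℝ → ℝ) : hf hX f * hf hX g = hf hX (fun x => f x * g x) := by
  unfold hf
  calc _ = (hX.eigenvectorUnitary : Matrix n n ℂ) * diagonal (fun i => ((f (hX.eigenvalues i) : ℝ) : ℂ))
        * (star (hX.eigenvectorUnitary : Matrix n n ℂ) * (hX.eigenvectorUnitary : Matrix n n ℂ))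
        * diagonal (fun i => ((g (hX.eigenvalues i) : ℝ) : ℂ))
        * star (hX.eigenvectorUnitary : Matrix n n ℂ) := by
          simp only [Matrix.mul_assoc]
    _ = _ := by
      rw [U_star_mul, mul_one, Matrix.mul_assoc (hX.eigenvectorUnitary : Matrix n n ℂ), diagonal_mul_diagonal]
      simp

lemma isHermitian_hf (f : ℝ → ℝ) : (hf hX f).IsHermitian := by
  unfold hf IsHermitian
  rw [conjTranspose_mul, conjTranspose_mul, Matrix.mul_assoc, Matrix.star_eq_conjTranspose,
    conjTranspose_conjTranspose, diagonal_conjTranspose]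
  have h : star (fun i => ((f (hX.eigenvalues i) : ℝ) : ℂ)) = fun i => ((f (hX.eigenvalues i) : ℝ) : ℂ) := by
    ext i
    simp
  rw [h]

lemma det_hf (f : ℝ → ℝ) : det (hf hX f) = ((∏ i, f (hX.eigenvalues i) : ℝ) : ℂ) := by
  unfold hf
  rw [det_mul, det_mul, mul_comm, ← mul_assoc, ← det_mul, U_star_mul, det_one, one_mul, det_diagonal]
  simp

lemma det_hf_re (f : ℝ → ℝ) : (det (hf hX f)).re = ∏ i, f (hX.eigenvalues i) := by
  rw [det_hf, Complex.ofReal_re]

/-- Affine functions of `X`. -/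
lemma hf_affine (a b : ℝ) : hf hX (fun x => a * x + b) = (a : ℂ) • X + (b : ℂ) • (1 : Matrix n n ℂ) := by
  rw [hf_add hX (fun x => a * x) (fun _ => b), hf_smul hX a (fun x => x), hf_id, hf_const]

lemma posSemidef_hf {f : ℝ → ℝ} (h : ∀ i, 0 ≤ f (hX.eigenvalues i)) : (hf hX f).PosSemidef := by
  unfold hf
  have hD : (diagonal (fun i => ((f (hX.eigenvalues i) : ℝ) : ℂ))).PosSemidef := by
    apply PosSemidef.diagonal
    intro i
    simpa using h i
  have := hD.mul_mul_conjTranspose_same (hX.eigenvectorUnitary : Matrix n n ℂ)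
  simpa [Matrix.star_eq_conjTranspose] using this

lemma posDef_hf {f : ℝ → ℝ} (h : ∀ i, 0 < f (hX.eigenvalues i)) : (hf hX f).PosDef := by
  unfold hf
  have hD : (diagonal (fun i => ((f (hX.eigenvalues i) : ℝ) : ℂ))).PosDef := by
    apply PosDef.diagonal
    intro i
    simpa using h i
  have hU : Function.Injective (fun v => v ᵥ* (hX.eigenvectorUnitary : Matrix n n ℂ)) := by
    intro x y hxy
    have := congrArg (fun v => v ᵥ* star (hX.eigenvectorUnitary : Matrix n n ℂ)) hxy
    simp only [vecMul_vecMul, U_mul_star, vecMul_one] at this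
    exact this
  have := hD.mul_mul_conjTranspose_same hU
  simpa [Matrix.star_eq_conjTranspose] using this

lemma hf_inv {f : ℝ → ℝ} (h : ∀ i, f (hX.eigenvalues i) ≠ 0) :
    hf hX f * hf hX (fun x => (f x)⁻¹) = 1 := by
  rw [hf_mul]
  have : hf hX (fun x => f x * (f x)⁻¹) = hf hX (fun _ => 1) :=
    hf_congr hX (fun i => mul_inv_cancel₀ (h i))
  rw [this, hf_const]
  simp

lemma hf_inv_eq {f : ℝ → ℝ} (h : ∀ i, f (hX.eigenvalues i) ≠ 0) :
    (hf hX f)⁻¹ = hf hX (fun x => (f x)⁻¹) :=
  Matrix.inv_eq_right_inv (hf_inv hX h)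

/-- coordinates of a vector in the eigenbasis -/
noncomputable def coord (x : n → ℂ) : n → ℂ :=
  star (hX.eigenvectorUnitary : Matrix n n ℂ) *ᵥ x

lemma coord_norm (x : n → ℂ) : star (coord hX x) ⬝ᵥ coord hX x = star x ⬝ᵥ x := by
  unfold coord
  rw [star_mulVec, ← dotProduct_mulVec, star_eq_conjTranspose, conjTranspose_conjTranspose,
    mulVec_mulVec, ← star_eq_conjTranspose, U_mul_star, one_mulVec]

lemma mulVec_hf (f : ℝ → ℝ) (x : n → ℂ) :
    coord hX (hf hX f *ᵥ x) = fun i => ((f (hX.eigenvalues i) : ℝ) : ℂ) * coord hX x i := by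
  unfold coord hf
  rw [mulVec_mulVec]
  have : star (hX.eigenvectorUnitary : Matrix n n ℂ) * ((hX.eigenvectorUnitary : Matrix n n ℂ) * diagonal (fun i => ((f (hX.eigenvalues i) : ℝ) : ℂ)) * star (hX.eigenvectorUnitary : Matrix n n ℂ)) = diagonal (fun i => ((f (hX.eigenvalues i) : ℝ) : ℂ)) * star (hX.eigenvectorUnitary : Matrix n n ℂ) := by
    rw [Matrix.mul_assoc, ← Matrix.mul_assoc, U_star_mul, one_mul]
  rw [this, ← mulVec_mulVec]
  ext i
  simp [mulVec_diagonal]

/-- The quadratic form of a function of `X`, in eigen-coordinates. -/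
lemma quad_hf (f : ℝ → ℝ) (x : n → ℂ) :
    star x ⬝ᵥ (hf hX f *ᵥ x)
      = ∑ i, ((f (hX.eigenvalues i) : ℝ) : ℂ) * (star (coord hX x i) * coord hX x i) := by
  have h1 : star x ⬝ᵥ (hf hX f *ᵥ x) = star (coord hX x) ⬝ᵥ coord hX (hf hX f *ᵥ x) := by
    unfold coord
    rw [star_mulVec, ← dotProduct_mulVec, star_eq_conjTranspose, conjTranspose_conjTranspose,
      mulVec_mulVec, ← star_eq_conjTranspose, U_mul_star, one_mulVec]
  rw [h1, mulVec_hf]
  simp only [dotProduct, Pi.star_apply]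
  apply Finset.sum_congr rfl
  intro i _
  ring

lemma quad_hf_re (f : ℝ → ℝ) (x : n → ℂ) :
    (star x ⬝ᵥ (hf hX f *ᵥ x)).re
      = ∑ i, f (hX.eigenvalues i) * Complex.normSq (coord hX x i) := by
  rw [quad_hf, Complex.re_sum]
  apply Finset.sum_congr rfl
  intro i _
  simp [Complex.normSq_apply, Complex.mul_re, Complex.mul_im]

lemma norm_coord_re (x : n → ℂ) :
    (star x ⬝ᵥ x).re = ∑ i, Complex.normSq (coord hX x i) := by
  rw [← coord_norm hX x, dotProduct, Complex.re_sum]
  apply Finset.sum_congr rfl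
  intro i _
  simp [Complex.normSq_apply, Complex.mul_re]

lemma quad_self_re (x : n → ℂ) :
    (star x ⬝ᵥ (X *ᵥ x)).re
      = ∑ i, hX.eigenvalues i * Complex.normSq (coord hX x i) := by
  conv_lhs => rw [← hf_id hX]
  exact quad_hf_re hX _ x

/-- `coord` of a column of the eigenvector unitary is a coordinate vector. -/
lemma coord_col (i : n) :
    coord hX ((hX.eigenvectorUnitary : Matrix n n ℂ) *ᵥ Pi.single i 1) = Pi.single i 1 := by
  unfold coord
  rw [mulVec_mulVec, U_star_mul, one_mulVec]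

/-- Conversely a positive definite `hf` has positive values on the eigenvalues. -/
lemma pos_of_posDef_hf {f : ℝ → ℝ} (h : (hf hX f).PosDef) (i : n) : 0 < f (hX.eigenvalues i) := by
  have hne : (hX.eigenvectorUnitary : Matrix n n ℂ) *ᵥ Pi.single i 1 ≠ 0 := by
    intro h0
    have := coord_col hX i
    rw [h0] at this
    simp only [coord, mulVec_zero] at this
    have h1 := congrFun this i
    simp at h1
  have h1 := h.dotProduct_mulVec_pos hne
  have h2 := quad_hf hX f ((hX.eigenvectorUnitary : Matrix n n ℂ) *ᵥ Pi.single i 1)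
  rw [coord_col] at h2
  have h3 : ∑ j, ((f (hX.eigenvalues j) : ℝ) : ℂ) * (star ((Pi.single i 1 : n → ℂ) j) * (Pi.single i 1 : n → ℂ) j) = ((f (hX.eigenvalues i) : ℝ) : ℂ) := by
    rw [Finset.sum_eq_single i]
    · simp
    · intro j _ hj
      simp [hj]
    · simp
  rw [h3] at h2
  rw [h2] at h1
  exact_mod_cast h1

lemma nonneg_of_posSemidef_hf {f : ℝ → ℝ} (h : (hf hX f).PosSemidef) (i : n) : 0 ≤ f (hX.eigenvalues i) := by
  have h1 := h.dotProduct_mulVec_nonneg ((hX.eigenvectorUnitary : Matrix n n ℂ) *ᵥ Pi.single i 1)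
  have h2 := quad_hf hX f ((hX.eigenvectorUnitary : Matrix n n ℂ) *ᵥ Pi.single i 1)
  rw [coord_col] at h2
  have h3 : ∑ j, ((f (hX.eigenvalues j) : ℝ) : ℂ) * (star ((Pi.single i 1 : n → ℂ) j) * (Pi.single i 1 : n → ℂ) j) = ((f (hX.eigenvalues i) : ℝ) : ℂ) := by
    rw [Finset.sum_eq_single i]
    · simp
    · intro j _ hj
      simp [hj]
    · simp
  rw [h3] at h2
  rw [h2] at h1
  exact_mod_cast h1

/-- **Eigenvalue counting.** If on the range of `F` (with `F` "injective in the quadratic sense")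
the form of `Z` exceeds `ξ`, then `card S ≤ #{eigenvalues of Z > ξ}`. -/
theorem card_le_card_eig {K S : Type*} [Fintype K] [DecidableEq K] [Fintype S] {Z : Matrix K K ℂ}
    (hZ : Z.IsHermitian) (ξ : ℝ) (F : Matrix K S ℂ)
    (h : ∀ c : S → ℂ, c ≠ 0 →
      ξ * (star (F *ᵥ c) ⬝ᵥ (F *ᵥ c)).re < (star (F *ᵥ c) ⬝ᵥ (Z *ᵥ (F *ᵥ c))).re) :
    Fintype.card S ≤ (Finset.univ.filter (fun i => ξ < hZ.eigenvalues i)).card := by
  classical
  by_contra hlt
  push Not at hlt
  set T := Finset.univ.filter (fun i => ξ < hZ.eigenvalues i) with hT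
  -- the linear map `c ↦ (coordinates of F c on T)`
  let Λ : (S → ℂ) →ₗ[ℂ] (T → ℂ) :=
    { toFun := fun c i => coord hZ (F *ᵥ c) i
      map_add' := by
        intro a b
        ext i
        simp [coord, mulVec_add]
      map_smul' := by
        intro a b
        ext i
        simp [coord, mulVec_smul] }
  have hrank : Module.finrank ℂ (T → ℂ) < Module.finrank ℂ (S → ℂ) := by
    simpa using hlt
  have hker := LinearMap.ker_ne_bot_of_finrank_lt hrank (f := Λ)
  obtain ⟨c, hc, hc0⟩ := (Submodule.ne_bot_iff _).mp hker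
  have hzero : ∀ i ∈ T, coord hZ (F *ᵥ c) i = 0 := by
    intro i hi
    have := congrFun (LinearMap.mem_ker.mp hc) ⟨i, hi⟩
    simpa [Λ] using this
  have h1 := h c hc0
  rw [quad_self_re hZ, norm_coord_re hZ, Finset.mul_sum] at h1
  have h2 : ∑ i, hZ.eigenvalues i * Complex.normSq (coord hZ (F *ᵥ c) i)
      ≤ ∑ i, ξ * Complex.normSq (coord hZ (F *ᵥ c) i) := by
    apply Finset.sum_le_sum
    intro i _
    by_cases hi : i ∈ T
    · simp [hzero i hi]
    · have : hZ.eigenvalues i ≤ ξ := by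
        simpa [hT] using hi
      exact mul_le_mul_of_nonneg_right this (Complex.normSq_nonneg _)
  linarith

end hf

end Crest.Agent.GAD
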