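import Crest.Agent.Lib.GADKey.LogDet

/-!
The "UV-Young" inequality: a lower bound of `log det (U + V - 1)` by sums over the eigenvalues of
`U` and `V` separately.
-/

set_option autoImplicit false

namespace Crest.Agent.GAD

open Matrix
open scoped ComplexOrder

variable {K : Type*} [Fintype K] [DecidableEq K]

lemma log_det_hf {X : Matrix K K ℂ} (hX : X.IsHermitian) {f : ℝ → ℝ}
    (h : ∀ i, 0 < f (hX.eigenvalues i)) :
    Real.log (hf hX f).det.re = ∑ i, Real.log (f (hX.eigenvalues i)) := by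
  rw [det_hf_re, Real.log_prod (fun i _ => (h i).ne')]

lemma young_posDef {P Q : Matrix K K ℂ} (hP : P.IsHermitian) (hQ : Q.IsHermitian)
    (fU fV : ℝ → ℝ) {u₀ v₀ : ℝ}
    (hu : ∀ i, u₀ < fU (hP.eigenvalues i)) (hv : ∀ j, v₀ < fV (hQ.eigenvalues j))
    (h01 : 1 ≤ u₀ + v₀) : (hf hP fU + hf hQ fV - 1).PosDef := by
  have hEA : (hf hQ (fun x => fV x - (1 - u₀))).PosSemidef := by
    apply posSemidef_hf
    intro j
    have := hv j
    linarith
  have eA1 : hf hP (fun x => fU x - u₀) + hf hQ (fun x => fV x - (1 - u₀)) = hf hP fU + hf hQ fV - 1 := by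
    rw [hf_sub hP fU (fun _ => u₀), hf_sub hQ fV (fun _ => 1 - u₀), hf_const, hf_const]
    ext i j
    simp only [Matrix.add_apply, Matrix.sub_apply, Matrix.smul_apply, Matrix.one_apply, smul_eq_mul]
    push_cast
    ring
  rw [← eA1]
  exact PosDef.add_posSemidef (posDef_hf hP (fun i => by have := hu i; linarith)) hEA

theorem young {P Q : Matrix K K ℂ} (hP : P.IsHermitian) (hQ : Q.IsHermitian)
    (fU fV : ℝ → ℝ) {u₀ v₀ θ us vs : ℝ}
    (hu : ∀ i, u₀ < fU (hP.eigenvalues i)) (hv : ∀ j, v₀ < fV (hQ.eigenvalues j))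
    (h01 : 1 ≤ u₀ + v₀) (hθ0 : 0 < θ) (hθ1 : θ < 1) (hus : 1 - θ < us) (hvs : θ < vs) :
    (∑ i, (Real.log (fU (hP.eigenvalues i) - u₀) - Real.log (max (fU (hP.eigenvalues i)) us - u₀)
        + θ * Real.log ((max (fU (hP.eigenvalues i)) us - 1 + θ) / θ)))
    + (∑ j, (Real.log (fV (hQ.eigenvalues j) - v₀) - Real.log (max (fV (hQ.eigenvalues j)) vs - v₀)
        + (1 - θ) * Real.log ((max (fV (hQ.eigenvalues j)) vs - θ) / (1 - θ))))
    ≤ Real.log (hf hP fU + hf hQ fV - 1).det.re := by
  have hθ1' : 0 < 1 - θ := by linarith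
  -- abbreviations for the two clipped functions
  set fUb : ℝ → ℝ := fun x => max (fU x) us with hfUb
  set fVb : ℝ → ℝ := fun x => max (fV x) vs with hfVb
  have hUle : ∀ i, fU (hP.eigenvalues i) ≤ fUb (hP.eigenvalues i) := fun i => le_max_left _ _
  have hVle : ∀ j, fV (hQ.eigenvalues j) ≤ fVb (hQ.eigenvalues j) := fun j => le_max_left _ _
  have hUb_u₀ : ∀ i, u₀ < fUb (hP.eigenvalues i) := fun i => lt_of_lt_of_le (hu i) (hUle i)
  have hVb_v₀ : ∀ j, v₀ < fVb (hQ.eigenvalues j) := fun j => lt_of_lt_of_le (hv j) (hVle j)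
  have hUb_θ : ∀ i, 1 - θ < fUb (hP.eigenvalues i) := fun i => lt_of_lt_of_le hus (le_max_right _ _)
  have hVb_θ : ∀ j, θ < fVb (hQ.eigenvalues j) := fun j => lt_of_lt_of_le hvs (le_max_right _ _)
  -- Step A
  have hEA : (hf hQ (fun x => fV x - (1 - u₀))).PosSemidef := by
    apply posSemidef_hf
    intro j
    have := hv j
    linarith
  have hA := det_ratio_mono hP (f := fun x => fU x - u₀) (g := fun x => fUb x - u₀)
    (fun i => by have := hu i; linarith) (fun i => by have := hUle i; linarith) hEA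
  have eA1 : hf hP (fun x => fU x - u₀) + hf hQ (fun x => fV x - (1 - u₀)) = hf hP fU + hf hQ fV - 1 := by
    rw [hf_sub hP fU (fun _ => u₀), hf_sub hQ fV (fun _ => 1 - u₀), hf_const, hf_const]
    ext i j
    simp only [Matrix.add_apply, Matrix.sub_apply, Matrix.smul_apply, Matrix.one_apply, smul_eq_mul]
    push_cast
    ring
  have eA2 : hf hP (fun x => fUb x - u₀) + hf hQ (fun x => fV x - (1 - u₀)) = hf hP fUb + hf hQ fV - 1 := by
    rw [hf_sub hP fUb (fun _ => u₀), hf_sub hQ fV (fun _ => 1 - u₀), hf_const, hf_const]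
    ext i j
    simp only [Matrix.add_apply, Matrix.sub_apply, Matrix.smul_apply, Matrix.one_apply, smul_eq_mul]
    push_cast
    ring
  rw [eA1, eA2] at hA
  -- Step B
  have hEB : (hf hP (fun x => fUb x - (1 - v₀))).PosSemidef := by
    apply posSemidef_hf
    intro i
    have := hUb_u₀ i
    linarith
  have hB := det_ratio_mono hQ (f := fun x => fV x - v₀) (g := fun x => fVb x - v₀)
    (fun j => by have := hv j; linarith) (fun j => by have := hVle j; linarith) hEB
  have eB1 : hf hQ (fun x => fV x - v₀) + hf hP (fun x => fUb x - (1 - v₀)) = hf hP fUb + hf hQ fV - 1 := by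
    rw [hf_sub hQ fV (fun _ => v₀), hf_sub hP fUb (fun _ => 1 - v₀), hf_const, hf_const]
    ext i j
    simp only [Matrix.add_apply, Matrix.sub_apply, Matrix.smul_apply, Matrix.one_apply, smul_eq_mul]
    push_cast
    ring
  have eB2 : hf hQ (fun x => fVb x - v₀) + hf hP (fun x => fUb x - (1 - v₀)) = hf hP fUb + hf hQ fVb - 1 := by
    rw [hf_sub hQ fVb (fun _ => v₀), hf_sub hP fUb (fun _ => 1 - v₀), hf_const, hf_const]
    ext i j
    simp only [Matrix.add_apply, Matrix.sub_apply, Matrix.smul_apply, Matrix.one_apply, smul_eq_mul]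
    push_cast
    ring
  rw [eB1, eB2] at hB
  -- Step C
  have hT₁ : (hf hP (fun x => (fUb x - 1 + θ) / θ)).PosDef := by
    apply posDef_hf
    intro i
    have := hUb_θ i
    apply div_pos _ hθ0
    linarith
  have hT₂ : (hf hQ (fun x => (fVb x - θ) / (1 - θ))).PosDef := by
    apply posDef_hf
    intro j
    have := hVb_θ j
    apply div_pos _ hθ1'
    linarith
  have hC := logdet_concave hT₁ hT₂ hθ0 hθ1
  have eC : (θ : ℂ) • hf hP (fun x => (fUb x - 1 + θ) / θ) + ((1 - θ : ℝ) : ℂ) • hf hQ (fun x => (fVb x - θ) / (1 - θ))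
      = hf hP fUb + hf hQ fVb - 1 := by
    rw [← hf_smul hP θ, ← hf_smul hQ (1 - θ)]
    have h1 : (fun x => θ * ((fUb x - 1 + θ) / θ)) = fun x => fUb x - (1 - θ) := by
      ext x
      field_simp
      ring
    have h2 : (fun x => (1 - θ) * ((fVb x - θ) / (1 - θ))) = fun x => fVb x - θ := by
      ext x
      field_simp
    rw [h1, h2, hf_sub hP fUb (fun _ => 1 - θ), hf_sub hQ fVb (fun _ => θ), hf_const, hf_const]
    ext i j
    simp only [Matrix.add_apply, Matrix.sub_apply, Matrix.smul_apply, Matrix.one_apply, smul_eq_mul]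
    push_cast
    ring
  rw [eC] at hC
  -- positivity of the three big determinants
  have pdD : (hf hP fU + hf hQ fV - 1).PosDef := by
    rw [← eA1]
    exact PosDef.add_posSemidef (posDef_hf hP (fun i => by have := hu i; linarith)) hEA
  have pdD₁ : (hf hP fUb + hf hQ fV - 1).PosDef := by
    rw [← eA2]
    exact PosDef.add_posSemidef (posDef_hf hP (fun i => by have := hUb_u₀ i; linarith)) hEA
  have pdD₂ : (hf hP fUb + hf hQ fVb - 1).PosDef := by
    rw [← eB2]
    exact PosDef.add_posSemidef (posDef_hf hQ (fun j => by have := hVb_v₀ j; linarith)) hEB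
  have D_pos := det_re_pos pdD
  have D₁_pos := det_re_pos pdD₁
  have D₂_pos := det_re_pos pdD₂
  -- logs of the products
  have pZ : ∀ i, 0 < fU (hP.eigenvalues i) - u₀ := fun i => by have := hu i; linarith
  have pZ' : ∀ i, 0 < fUb (hP.eigenvalues i) - u₀ := fun i => by have := hUb_u₀ i; linarith
  have pW : ∀ j, 0 < fV (hQ.eigenvalues j) - v₀ := fun j => by have := hv j; linarith
  have pW' : ∀ j, 0 < fVb (hQ.eigenvalues j) - v₀ := fun j => by have := hVb_v₀ j; linarith
  have lZ := log_det_hf hP (f := fun x => fU x - u₀) pZ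
  have lZ' := log_det_hf hP (f := fun x => fUb x - u₀) pZ'
  have lW := log_det_hf hQ (f := fun x => fV x - v₀) pW
  have lW' := log_det_hf hQ (f := fun x => fVb x - v₀) pW'
  have lT₁ := log_det_hf hP (f := fun x => (fUb x - 1 + θ) / θ)
    (fun i => by have := hUb_θ i; exact div_pos (by linarith) hθ0)
  have lT₂ := log_det_hf hQ (f := fun x => (fVb x - θ) / (1 - θ))
    (fun j => by have := hVb_θ j; exact div_pos (by linarith) hθ1')
  have dZpos := det_re_pos (posDef_hf hP (f := fun x => fU x - u₀) pZ)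
  have dZ'pos := det_re_pos (posDef_hf hP (f := fun x => fUb x - u₀) pZ')
  have dWpos := det_re_pos (posDef_hf hQ (f := fun x => fV x - v₀) pW)
  have dW'pos := det_re_pos (posDef_hf hQ (f := fun x => fVb x - v₀) pW')
  have hA' := Real.log_le_log (by positivity) hA
  have hB' := Real.log_le_log (by positivity) hB
  rw [Real.log_mul D₁_pos.ne' dZpos.ne', Real.log_mul D_pos.ne' dZ'pos.ne', lZ, lZ'] at hA'
  rw [Real.log_mul D₂_pos.ne' dWpos.ne', Real.log_mul D₁_pos.ne' dW'pos.ne', lW, lW'] at hB'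
  rw [lT₁, lT₂] at hC
  simp only [Finset.sum_add_distrib, Finset.sum_sub_distrib, ← Finset.mul_sum]
  linarith

end Crest.Agent.GAD
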